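import Crest.Agent.R264.Defs

/-! JA: `jab1`.

`Lc = ℂ ⊗[ℝ] L`, `g λ = Module.End.maxGenEigenspace (LieModule.toEnd ℂ Lc Lc (1 ⊗ₜ δ)) λ`
(`LieModule.toEnd_baseChange`, `LieModule.lie_mem_maxGenEigenspace_toEnd`), `U = ⨆ Re λ < 0, g λ`,
`Pc = ⨆ Re λ ≤ 0, g λ`, `𝔲 = {x | 1 ⊗ x ∈ U}`, `𝔭 = (killingForm ℝ L).orthogonal 𝔲` (so the dimension formula is
`LinearMap.BilinForm.finrank_orthogonal`).  `re, im : Lc →ₗ[ℝ] L`, `y = 1 ⊗ re y + I • 1 ⊗ im y`; the conjugation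
`y ↦ 1 ⊗ re y - I • 1 ⊗ im y` maps `g λ` to `g (conj λ)`, so `y ∈ U → re y, im y ∈ 𝔲`.
`Bc = killingForm ℂ Lc` (`LieModule.traceForm_baseChange`), `Bc (g λ) (g μ) = 0` if `λ + μ ≠ 0` (induction on the
two exponents: `Bc ((D-λ)x) y + Bc x ((D-μ)y) = -(λ+μ) Bc x y`).  `x ∈ 𝔭 ↔ 1 ⊗ x ∈ Pc`: write `1 ⊗ x = p + q`
with `q ∈ ⨆ Re λ > 0` (`Module.End.iSup_maxGenEigenspace_eq_top`); `q` is orthogonal to everything.
Last clause: `𝔳c = {y | re y ∈ 𝔳 ∧ im y ∈ 𝔳}`; finitely many `g λ ≠ ⊥`; induct on `n`: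
`Re λ < 0 → Re λ < -C + n → g λ ≤ 𝔳c`; if `D (g λ) ⊆ 𝔳c` and `λ ≠ 0` then by induction on the exponent
`λ W = D W - (D - λ) W ∈ 𝔳c`. -/

set_option autoImplicit false
set_option linter.unusedSectionVars false
open Complex

namespace Crest.Agent.R264

variable {L : Type} [LieRing L] [LieAlgebra ℝ L] [FiniteDimensional ℝ L]

open scoped TensorProduct ComplexConjugate

/-- real part -/
noncomputable def jab1Re : ℂ ⊗[ℝ] L →ₗ[ℝ] L := (TensorProduct.lid ℝ L).toLinearMap ∘ₗ LinearMap.rTensor L reLm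
/-- imaginary part -/
noncomputable def jab1Im : ℂ ⊗[ℝ] L →ₗ[ℝ] L := (TensorProduct.lid ℝ L).toLinearMap ∘ₗ LinearMap.rTensor L imLm
/-- conjugation -/
noncomputable def jab1C : ℂ ⊗[ℝ] L →ₗ[ℝ] ℂ ⊗[ℝ] L := LinearMap.rTensor L conjAe.toLinearMap

theorem jab1_dec (y : ℂ ⊗[ℝ] L) : y = 1 ⊗ₜ jab1Re y + I • (1 : ℂ) ⊗ₜ jab1Im y := by
  induction y with
  | zero => simp
  | tmul z x =>
    simp only [jab1Re, jab1Im, LinearMap.comp_apply, LinearMap.rTensor_tmul, LinearEquiv.coe_coe,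
      TensorProduct.lid_tmul, ← TensorProduct.smul_tmul, TensorProduct.smul_tmul', ← TensorProduct.add_tmul]
    congr 1
    simp [mul_comm I]
  | add a b ha hb =>
    rw [map_add, map_add, TensorProduct.tmul_add, TensorProduct.tmul_add, smul_add, add_add_add_comm, ← ha, ← hb]

theorem jab1_dec' (y : ℂ ⊗[ℝ] L) : jab1C y = 1 ⊗ₜ jab1Re y - I • (1 : ℂ) ⊗ₜ jab1Im y := by
  nth_rw 1 [jab1_dec y]
  simp [jab1C, TensorProduct.smul_tmul', sub_eq_add_neg, TensorProduct.neg_tmul]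

theorem jab1_smul (z : ℂ) (y : ℂ ⊗[ℝ] L) : jab1Re (z • y) = z.re • jab1Re y - z.im • jab1Im y ∧
    jab1Im (z • y) = z.re • jab1Im y + z.im • jab1Re y := by
  induction y with
  | zero => simp
  | tmul w x => simp [jab1Re, jab1Im, TensorProduct.smul_tmul', sub_smul, add_smul, mul_smul]
  | add a b ha hb =>
    simp only [smul_add, map_add, ha, hb]
    constructor <;> abel

theorem jab1_re_lie (a : L) (y : ℂ ⊗[ℝ] L) :
    jab1Re ⁅(1 : ℂ) ⊗ₜ[ℝ] a, y⁆ = ⁅a, jab1Re y⁆ ∧ jab1Im ⁅(1 : ℂ) ⊗ₜ[ℝ] a, y⁆ = ⁅a, jab1Im y⁆ := by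
  induction y with
  | zero => simp [lie_zero ((1 : ℂ) ⊗ₜ[ℝ] a)]
  | tmul w x => simp [jab1Re, jab1Im]
  | add b c hb hc => simp only [lie_add ((1 : ℂ) ⊗ₜ[ℝ] a) b c, lie_add a, map_add, hb, hc, and_self]

theorem jab1_C_lie (a : L) (l : ℂ) (y : ℂ ⊗[ℝ] L) :
    jab1C (⁅(1 : ℂ) ⊗ₜ[ℝ] a, y⁆ - l • y) = ⁅(1 : ℂ) ⊗ₜ[ℝ] a, jab1C y⁆ - conj l • jab1C y := by
  induction y with
  | zero => simp [lie_zero ((1 : ℂ) ⊗ₜ[ℝ] a)]
  | tmul w x => simp [jab1C, TensorProduct.smul_tmul']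
  | add b c hb hc =>
    rw [lie_add ((1 : ℂ) ⊗ₜ[ℝ] a) b c, smul_add, add_sub_add_comm, map_add, hb, hc, map_add,
      lie_add ((1 : ℂ) ⊗ₜ[ℝ] a) (jab1C b), smul_add, add_sub_add_comm]

section
variable {M : Type} [LieRing M] [LieAlgebra ℂ M] [FiniteDimensional ℂ M]

/-- generalised eigenspaces -/
noncomputable def jab1E (d : M) (l : ℂ) : Submodule ℂ M := (LieModule.toEnd ℂ M M d).maxGenEigenspace l

/-- sums of generalised eigenspaces -/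
noncomputable def jab1G (d : M) (S : Set ℂ) : Submodule ℂ M := ⨆ l ∈ S, jab1E d l

theorem jab1E_step {d x : M} {l : ℂ} (h : ⁅d, x⁆ - l • x ∈ jab1E d l) : x ∈ jab1E d l := by
  obtain ⟨k, hk⟩ := (Module.End.mem_maxGenEigenspace _ _ _).1 h
  exact (Module.End.mem_maxGenEigenspace _ _ _).2 ⟨k + 1, by rwa [pow_succ, Module.End.mul_apply]⟩

theorem jab1E_ind {d x : M} {l : ℂ} {P : M → Prop} (hx : x ∈ jab1E d l) (h0 : P 0)
    (h : ∀ x ∈ jab1E d l, P (⁅d, x⁆ - l • x) → P x) : P x := by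
  obtain ⟨k, hk⟩ := (Module.End.mem_maxGenEigenspace _ _ _).1 hx
  clear hx
  induction k generalizing x with
  | zero => rwa [show x = 0 from hk]
  | succ k ih =>
    exact h x ((Module.End.mem_maxGenEigenspace _ _ _).2 ⟨_, hk⟩) (ih (by rwa [pow_succ, Module.End.mul_apply] at hk))

theorem jab1E_lie {d x y : M} {l m : ℂ} (hx : x ∈ jab1E d l) (hy : y ∈ jab1E d m) : ⁅x, y⁆ ∈ jab1E d (l + m) :=
  LieModule.lie_mem_maxGenEigenspace_toEnd hx hy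

theorem jab1E_fin (d : M) : ∃ C : ℝ, ∀ l : ℂ, l.re < C → jab1E d l = ⊥ := by
  obtain ⟨C, hC⟩ := ((WellFoundedGT.finite_ne_bot_of_iSupIndep
    (LieModule.toEnd ℂ M M d).independent_maxGenEigenspace).image re).bddBelow
  exact ⟨C, fun l h => not_not.1 fun h' => (hC ⟨l, h', rfl⟩).not_gt h⟩

theorem jab1_mem {d : M} {S : Set ℂ} {l : ℂ} (hl : l ∈ S) {x : M}
    (hx : x ∈ jab1E d l) : x ∈ jab1G d S :=
  Submodule.mem_iSup_of_mem l (Submodule.mem_iSup_of_mem hl hx)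

theorem jab1_ind {d : M} {S : Set ℂ} {P : M → Prop} {x : M} (hx : x ∈ jab1G d S)
    (h : ∀ l ∈ S, ∀ x ∈ jab1E d l, P x) (h0 : P 0)
    (ha : ∀ x y, P x → P y → P (x + y)) : P x :=
  Submodule.iSup_induction (motive := P) _ hx (fun l _ hx => Submodule.iSup_induction (motive := P) _ hx (h l) h0 ha) h0 ha

theorem jab1_lie (d : M) {S T R : Set ℂ} (h : ∀ l ∈ S, ∀ m ∈ T, l + m ∈ R) {x y : M} (hx : x ∈ jab1G d S)
    (hy : y ∈ jab1G d T) : ⁅x, y⁆ ∈ jab1G d R :=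
  jab1_ind (P := fun x => ⁅x, y⁆ ∈ jab1G d R) hx (fun l hl x hx => jab1_ind (P := fun y => ⁅x, y⁆ ∈ jab1G d R) hy
    (fun m hm _ hy => jab1_mem (h l hl m hm) (jab1E_lie hx hy)) (by simp)
    fun a b ha hb => lie_add x a b ▸ add_mem ha hb) (by simp) fun a b ha hb => add_lie a b y ▸ add_mem ha hb

theorem jab1_orth0 (d : M) {l m : ℂ} (h : l + m ≠ 0) (i j : ℕ) (x y : M)
    (hx : ((LieModule.toEnd ℂ M M d - l • 1) ^ i) x = 0) (hy : ((LieModule.toEnd ℂ M M d - m • 1) ^ j) y = 0) :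
    killingForm ℂ M x y = 0 := by
  induction i generalizing x y j with
  | zero => simp [show x = 0 from hx]
  | succ i ih =>
    induction j generalizing y with
    | zero => simp [show y = 0 from hy]
    | succ j ih' =>
      have h1 := ih _ _ _ (by rwa [pow_succ, Module.End.mul_apply] at hx) hy
      have h2 := ih' _ (by rwa [pow_succ, Module.End.mul_apply] at hy)
      simp only [LinearMap.sub_apply, LinearMap.smul_apply, Module.End.one_apply, LieModule.toEnd_apply_apply,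
        map_sub, map_smul, smul_eq_mul, LieModule.traceForm_apply_lie_apply'] at h1 h2
      exact (mul_eq_zero.1 (by linear_combination -h1 - h2)).resolve_left h

theorem jab1_orth (d : M) {S T : Set ℂ} (h : ∀ l ∈ S, ∀ m ∈ T, l + m ≠ 0) {x y : M} (hx : x ∈ jab1G d S)
    (hy : y ∈ jab1G d T) : killingForm ℂ M x y = 0 :=
  jab1_ind (P := fun x => killingForm ℂ M x y = 0) hx (fun l hl x hx => jab1_ind
    (P := fun y => killingForm ℂ M x y = 0) hy (fun m hm y hy => by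
      obtain ⟨i, hi⟩ := (Module.End.mem_maxGenEigenspace _ _ _).1 hx
      obtain ⟨j, hj⟩ := (Module.End.mem_maxGenEigenspace _ _ _).1 hy
      exact jab1_orth0 d (h l hl m hm) i j x y hi hj) (by simp)
    fun a b ha hb => by rw [map_add, ha, hb, add_zero]) (by simp)
    fun a b ha hb => by rw [map_add, LinearMap.add_apply, ha, hb, add_zero]

theorem jab1_split (d : M) (S : Set ℂ) (x : M) : ∃ p ∈ jab1G d S, ∃ q ∈ jab1G d Sᶜ, p + q = x := by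
  refine Submodule.mem_sup.1 (Submodule.eq_top_iff'.1 ?_ x)
  rw [jab1G, jab1G, ← iSup_union, Set.union_compl_self, iSup_univ]
  exact Module.End.iSup_maxGenEigenspace_eq_top _

end

theorem jab1_conj (δ : L) {S : Set ℂ} (h : ∀ l ∈ S, conj l ∈ S) {y : ℂ ⊗[ℝ] L} (hy : y ∈ jab1G ((1 : ℂ) ⊗ₜ[ℝ] δ) S) :
    jab1C y ∈ jab1G ((1 : ℂ) ⊗ₜ[ℝ] δ) S := by
  refine jab1_ind (P := fun y => jab1C y ∈ jab1G ((1 : ℂ) ⊗ₜ[ℝ] δ) S) hy (fun l hl y hy => jab1_mem (h l hl) ?_)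
    (by simp) fun a b ha hb => map_add jab1C a b ▸ add_mem ha hb
  exact jab1E_ind (P := fun y => jab1C y ∈ jab1E ((1 : ℂ) ⊗ₜ[ℝ] δ) (conj l)) hy (by simp) fun x _ hx =>
    jab1E_step ((congrArg (· ∈ jab1E _ _) (jab1_C_lie δ l x)).mp hx)

theorem jab1' (hk : LieAlgebra.IsKilling ℝ L) (δ : L) (𝒩 : Set L)
    (hN : ∀ N ∈ 𝒩, ⁅δ, N⁆ = -N ∨ ⁅δ, N⁆ = -((2 : ℝ) • N)) :
    ∃ 𝔲 𝔭 : Submodule ℝ L, 𝔲 ≤ 𝔭 ∧ (∀ P ∈ 𝔭, ∀ N ∈ 𝔲, ⁅P, N⁆ ∈ 𝔲) ∧ (∀ N ∈ 𝒩, ∀ P ∈ 𝔭, ⁅N, P⁆ ∈ 𝔲) ∧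
      (∀ N ∈ 𝔲, ∀ P ∈ 𝔭, killingForm ℝ L N P = 0) ∧
      Module.finrank ℝ 𝔲 + Module.finrank ℝ 𝔭 = Module.finrank ℝ L ∧
      ∀ 𝔳 : Submodule ℝ L, (∀ W, (∀ N ∈ 𝒩, ⁅N, W⁆ ∈ 𝔳) → ⁅δ, W⁆ ∈ 𝔳) → 𝔲 ≤ 𝔳 := by
  set d : ℂ ⊗[ℝ] L := 1 ⊗ₜ δ
  have hB : ∀ a b : L, killingForm ℂ (ℂ ⊗[ℝ] L) (1 ⊗ₜ a) (1 ⊗ₜ b) = killingForm ℝ L a b := fun a b => by
    rw [show killingForm ℂ (ℂ ⊗[ℝ] L) = _ from LieModule.traceForm_baseChange ℝ L L ℂ, LinearMap.BilinForm.baseChange_tmul, mul_one, real_smul, mul_one]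
  let 𝔲 := ((jab1G d {l | l.re < 0}).restrictScalars ℝ).comap (TensorProduct.mk ℝ ℂ L 1)
  have hu : ∀ y ∈ jab1G d {l | l.re < 0}, jab1Re y ∈ 𝔲 ∧ jab1Im y ∈ 𝔲 := fun y hy => by
    have h1 := jab1_conj δ (fun l (hl : l.re < 0) => (hl : (conj l).re < 0)) hy
    have e1 : (1 : ℂ) ⊗ₜ[ℝ] jab1Re y = (1 / 2 : ℂ) • (y + jab1C y) := by
      rw [jab1_dec' y]
      nth_rw 2 [jab1_dec y]
      module
    have e2 : (1 : ℂ) ⊗ₜ[ℝ] jab1Im y = (-I / 2) • (y - jab1C y) := by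
      rw [jab1_dec' y]
      nth_rw 2 [jab1_dec y]
      rw [add_sub_sub_cancel, ← two_smul ℂ, smul_smul, smul_smul, show -I / 2 * 2 * I = 1 by
        linear_combination -I_mul_I, one_smul]
    exact ⟨show _ ⊗ₜ _ ∈ jab1G d _ from e1 ▸ Submodule.smul_mem _ _ (add_mem hy h1),
      show _ ⊗ₜ _ ∈ jab1G d _ from e2 ▸ Submodule.smul_mem _ _ (sub_mem hy h1)⟩
  have hp : ∀ x, x ∈ (killingForm ℝ L).orthogonal 𝔲 ↔ (1 : ℂ) ⊗ₜ[ℝ] x ∈ jab1G d {l | l.re ≤ 0} := fun x => by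
    refine ⟨fun hx => ?_, fun hx N hN => ofReal_eq_zero.1 ((hB N x).symm.trans (jab1_orth d
      (fun l (hl : l.re < 0) m (hm : m.re ≤ 0) e => by simpa [← add_re, e] using add_neg_of_neg_of_nonpos hl hm) hN hx))⟩
    obtain ⟨p, hp, q, hq, e⟩ := jab1_split d {l | l.re ≤ 0} (1 ⊗ₜ x)
    have h1 : ∀ a : L, killingForm ℂ (ℂ ⊗[ℝ] L) (1 ⊗ₜ a) q = 0 := fun a => by
      obtain ⟨u, hu', w, hw, e'⟩ := jab1_split d {l | l.re < 0} (1 ⊗ₜ a)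
      have h2 := jab1_orth d (fun l (hl : l.re < 0) m (hm : m.re ≤ 0) e => by
        simpa [← add_re, e] using add_neg_of_neg_of_nonpos hl hm) hu' hp
      have h3 := jab1_orth d (fun l (hl : ¬ l.re < 0) m (hm : ¬ m.re ≤ 0) e => by
        simpa [← add_re, e] using add_pos_of_nonneg_of_pos (not_lt.1 hl) (not_le.1 hm)) hw hq
      have h4 : killingForm ℂ (ℂ ⊗[ℝ] L) u (p + q) = 0 := by
        rw [e, jab1_dec u, map_add, map_smul, LinearMap.add_apply, LinearMap.smul_apply, hB, hB, hx _ (hu u hu').1,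
          hx _ (hu u hu').2, ofReal_zero, smul_zero, add_zero]
      rw [map_add, h2, zero_add] at h4
      rw [← e', map_add, LinearMap.add_apply, h3, h4, add_zero]
    have h2 : ∀ a, killingForm ℝ L a (jab1Re q) = 0 ∧ killingForm ℝ L a (jab1Im q) = 0 := fun a => by
      have := h1 a
      rw [jab1_dec q, map_add, map_smul, hB, hB] at this
      simpa [Complex.ext_iff] using this
    have h3 := LieAlgebra.IsKilling.killingForm_nondegenerate ℝ L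
    rw [← e, jab1_dec q, h3.2 _ fun a => (h2 a).1, h3.2 _ fun a => (h2 a).2]
    simpa using hp
  have hN' : ∀ N ∈ 𝒩, ∃ c : ℂ, c.re ≤ -1 ∧ (1 : ℂ) ⊗ₜ[ℝ] N ∈ jab1E d c := fun N h => by
    rcases hN N h with h | h
    · refine ⟨-1, by simp, jab1E_step ((congrArg (· ∈ jab1E d _) ?_).mpr (zero_mem _))⟩
      simp [d, h, TensorProduct.tmul_neg]
    · refine ⟨-2, by simp, jab1E_step ((congrArg (· ∈ jab1E d _) ?_).mpr (zero_mem _))⟩
      simp [d, h, TensorProduct.tmul_neg, two_smul, TensorProduct.tmul_add]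
  have hl : ∀ a b : L, (1 : ℂ) ⊗ₜ[ℝ] ⁅a, b⁆ = ⁅(1 : ℂ) ⊗ₜ[ℝ] a, (1 : ℂ) ⊗ₜ[ℝ] b⁆ := fun a b => by simp
  refine ⟨𝔲, (killingForm ℝ L).orthogonal 𝔲, fun x hx => (hp x).2 
      ((biSup_mono fun (l : ℂ) (hl : l.re < 0) => hl.le : jab1G d _ ≤ jab1G d _) hx),
    fun P hP N hN => (congrArg (· ∈ jab1G d _) (hl P N)).mpr (jab1_lie d (fun l (hl : l.re ≤ 0) m (hm : m.re < 0) =>
      add_neg_of_nonpos_of_neg hl hm) ((hp P).1 hP) hN), fun N hN P hP => ?_, fun N hN P hP => hP N hN, ?_,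
    fun 𝔳 h𝔳 x hx => ?_⟩
  · obtain ⟨c, hc, h⟩ := hN' N hN
    have := jab1_lie d (S := {c}) (R := {l | l.re < 0}) (fun l hl m (hm : m.re ≤ 0) =>
      show l.re + m.re < 0 by rw [hl]; linarith) (jab1_mem (Set.mem_singleton c) h) ((hp P).1 hP)
    exact (congrArg (· ∈ jab1G d _) (hl N P)).mpr this
  · rw [LinearMap.BilinForm.finrank_orthogonal (LieAlgebra.IsKilling.killingForm_nondegenerate ℝ L),
      Nat.add_sub_cancel' (Submodule.finrank_le _)]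
  let V : Submodule ℂ (ℂ ⊗[ℝ] L) :=
    { carrier := {y | jab1Re y ∈ 𝔳 ∧ jab1Im y ∈ 𝔳}
      zero_mem' := by simp
      add_mem' := fun ha hb => ⟨map_add (jab1Re (L := L)) _ _ ▸ add_mem ha.1 hb.1,
        map_add (jab1Im (L := L)) _ _ ▸ add_mem ha.2 hb.2⟩
      smul_mem' := fun z y hy => ⟨(jab1_smul z y).1 ▸ sub_mem (𝔳.smul_mem _ hy.1) (𝔳.smul_mem _ hy.2),
        (jab1_smul z y).2 ▸ add_mem (𝔳.smul_mem _ hy.2) (𝔳.smul_mem _ hy.1)⟩ }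
  obtain ⟨C, hC⟩ := jab1E_fin d
  have key : ∀ (n : ℕ) (l : ℂ), l.re < 0 → l.re < C + n → jab1E d l ≤ V := fun n => by
    induction n with
    | zero => exact fun l _ h => (hC l (by simpa using h)).trans_le bot_le
    | succ n ih =>
      refine fun l h0 h1 W hW => jab1E_ind (P := (· ∈ V)) hW (zero_mem V) fun W hW h2 => ?_
      have h3 : ∀ N ∈ 𝒩, ⁅(1 : ℂ) ⊗ₜ[ℝ] N, W⁆ ∈ V := fun N hN => by
        obtain ⟨c, hc, h⟩ := hN' N hN
        push_cast at h1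
        exact ih _ (by rw [add_re]; linarith) (by rw [add_re]; linarith) (jab1E_lie h hW)
      have h4 : ⁅d, W⁆ ∈ V := ⟨(jab1_re_lie δ W).1 ▸ h𝔳 _ fun N hN => (jab1_re_lie N W).1 ▸ (h3 N hN).1,
        (jab1_re_lie δ W).2 ▸ h𝔳 _ fun N hN => (jab1_re_lie N W).2 ▸ (h3 N hN).2⟩
      rw [← V.smul_mem_iff (s := l) fun e => by simp [e] at h0]
      exact (congrArg (· ∈ V) (sub_sub_cancel _ _)).mp (sub_mem h4 h2)
  obtain ⟨n, hn⟩ := exists_nat_gt (-C)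
  simpa [jab1Re] using (iSup₂_le (fun l (hl : l.re < 0) => key n l hl (by linarith)) hx : _ ∈ V).1

end Crest.Agent.R264
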