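import Crest.Agent.R264.JA.Lin

/-! JA: the normalised complex structure `J`. -/

set_option autoImplicit false
set_option linter.unusedSectionVars false
open Complex

namespace Crest.Agent.R264

variable {L V : Type} [LieRing L] [LieAlgebra ℝ L] [FiniteDimensional ℝ L]
  [AddCommGroup V] [Module ℂ V] [Module ℝ V] [IsScalarTower ℝ ℂ V] [FiniteDimensional ℂ V]
  {ev : L →ₗ[ℝ] V} {J : L →ₗ[ℝ] L}

/-- `J` lifts `I`, vanishes on `𝔨 = ker ev` and has values in `𝔪 = 𝔨^⊥` -/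
structure IsJ (ev : L →ₗ[ℝ] V) (J : L →ₗ[ℝ] L) : Prop where
  evJ : ∀ a, ev (J a) = I • ev a
  ker : ∀ k, ev k = 0 → J k = 0
  perp : ∀ a k, ev k = 0 → killingForm ℝ L (J a) k = 0

local notation "κ" => killingForm ℝ L

theorem kf_comm (x y : L) : κ x y = κ y x := LieModule.traceForm_comm ℝ L L x y

theorem kf_lie (x y z : L) : κ ⁅x, y⁆ z = κ x ⁅y, z⁆ := LieModule.traceForm_apply_lie_apply ℝ L L x y z

theorem kf_lie' (x y z : L) : κ ⁅x, y⁆ z = -κ y ⁅x, z⁆ := LieModule.traceForm_apply_lie_apply' ℝ L L x y z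

theorem NegK.eq_zero (hn : NegK ev) {x : L} (h0 : ev x = 0) (hp : ∀ k, ev k = 0 → κ x k = 0) : x = 0 := by
  by_contra hx
  exact (hn x h0 hx).ne (hp x h0)

theorem NegK.nonpos (hn : NegK ev) {x : L} (h0 : ev x = 0) : κ x x ≤ 0 := by
  by_cases hx : x = 0
  · simp [hx]
  · exact (hn x h0 hx).le

theorem JAlg.lie_kk (h : JAlg ev) {k k' : L} (hk : ev k = 0) (hk' : ev k' = 0) : ev ⁅k, k'⁆ = 0 := by
  simpa using h.integ k 0 k' 0 (by simp [hk]) (by simp [hk'])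

theorem NegK.isCompl (hn : NegK ev) :
    IsCompl (LinearMap.ker ev) ((κ).orthogonal (LinearMap.ker ev)) := by
  refine LinearMap.BilinForm.isCompl_orthogonal_of_restrict_nondegenerate
    (LieModule.traceForm_isSymm ℝ L L).isRefl ⟨fun x hx => ?_, fun x hx => ?_⟩
  · refine Subtype.ext (hn.eq_zero x.2 fun k hk => ?_)
    exact hx ⟨k, hk⟩
  · refine Subtype.ext (hn.eq_zero x.2 fun k hk => ?_)
    rw [kf_comm]; exact hx ⟨k, hk⟩

theorem I_smul_I (v : V) : I • I • v = -v := by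
  rw [smul_smul, I_mul_I, neg_smul, one_smul]

theorem I_smul_real (c : ℝ) (v : V) : I • c • v = c • I • v := by
  rw [← algebraMap_smul ℂ c v, ← algebraMap_smul ℂ c (I • v), smul_comm]

theorem exists_isJ (h : JAlg ev) (hn : NegK ev) : ∃ J : L →ₗ[ℝ] L, IsJ ev J := by
  have hex : ∀ a, ∃ b, ev b = I • ev a ∧ ∀ k, ev k = 0 → κ b k = 0 := by
    intro a
    obtain ⟨a', ha'⟩ := h.cx a
    have : a' ∈ LinearMap.ker ev ⊔ (κ).orthogonal (LinearMap.ker ev) := by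
      rw [hn.isCompl.sup_eq_top]; trivial
    obtain ⟨k, hk, m, hm, rfl⟩ := Submodule.mem_sup.1 this
    refine ⟨m, ?_, fun k' hk' => ?_⟩
    · rw [← ha', map_add, LinearMap.mem_ker.1 hk, zero_add]
    · rw [kf_comm]; exact hm k' hk'
  choose j hj hp using hex
  have uniq : ∀ a b, ev b = I • ev a → (∀ k, ev k = 0 → κ b k = 0) → j a = b := by
    intro a b h1 h2
    rw [← sub_eq_zero]
    refine hn.eq_zero (by rw [map_sub, hj, h1, sub_self]) fun k hk => ?_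
    rw [map_sub, LinearMap.sub_apply, hp a k hk, h2 k hk, sub_self]
  refine ⟨⟨⟨j, fun a b => uniq _ _ ?_ ?_⟩, fun c a => uniq _ _ ?_ ?_⟩, hj, fun k hk => uniq _ _ ?_ ?_, hp⟩
  · rw [map_add, map_add, hj, hj, smul_add]
  · intro k hk; rw [map_add, LinearMap.add_apply, hp a k hk, hp b k hk, add_zero]
  · simp only [RingHom.id_apply, map_smul, hj, I_smul_real]
  · intro k hk; simp only [RingHom.id_apply, map_smul, LinearMap.smul_apply, hp a k hk, smul_zero]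
  · simp [hk]
  · simp

/-- the projection onto `𝔨` -/
def jq (J : L →ₗ[ℝ] L) : L →ₗ[ℝ] L := 1 + J * J

theorem jq_apply (J : L →ₗ[ℝ] L) (a : L) : jq J a = a + J (J a) := rfl

namespace IsJ

theorem ev_q (hJ : IsJ ev J) (a : L) : ev (jq J a) = 0 := by
  rw [jq_apply, map_add, hJ.evJ, hJ.evJ, I_smul_I, add_neg_cancel]

theorem J_q (hJ : IsJ ev J) (a : L) : J (jq J a) = 0 := hJ.ker _ (hJ.ev_q a)

theorem JJJ (hJ : IsJ ev J) (a : L) : J (J (J a)) = -J a := by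
  have := hJ.J_q a
  rw [jq_apply, map_add] at this
  exact eq_neg_of_add_eq_zero_right this

theorem q_J (hJ : IsJ ev J) (a : L) : jq J (J a) = 0 := by
  rw [jq_apply, hJ.JJJ, add_neg_cancel]

theorem q_k (hJ : IsJ ev J) {k : L} (hk : ev k = 0) : jq J k = k := by
  rw [jq_apply, hJ.ker k hk, map_zero, add_zero]

theorem q_q (hJ : IsJ ev J) (a : L) : jq J (jq J a) = jq J a := hJ.q_k (hJ.ev_q a)

theorem q_m (hJ : IsJ ev J) (hn : NegK ev) {x : L} (hx : ∀ k, ev k = 0 → κ x k = 0) : jq J x = 0 := by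
  refine hn.eq_zero (hJ.ev_q x) fun k hk => ?_
  rw [jq_apply, map_add, LinearMap.add_apply, hx k hk, hJ.perp _ k hk, add_zero]

theorem m_of_q (hJ : IsJ ev J) {x : L} (hx : jq J x = 0) {k : L} (hk : ev k = 0) : κ x k = 0 := by
  have : x = -J (J x) := eq_neg_of_add_eq_zero_left hx
  rw [this, map_neg, LinearMap.neg_apply, hJ.perp _ k hk, neg_zero]

theorem J_congr (hJ : IsJ ev J) {a b : L} (hab : ev a = ev b) : J a = J b := by
  rw [← sub_eq_zero, ← map_sub]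
  exact hJ.ker _ (by rw [map_sub, hab, sub_self])

theorem kf_q (hJ : IsJ ev J) (a : L) {k : L} (hk : ev k = 0) : κ (jq J a) k = κ a k := by
  rw [jq_apply, map_add, LinearMap.add_apply, hJ.perp _ k hk, add_zero]

theorem kf_qq (hJ : IsJ ev J) (a b : L) : κ (jq J a) b = κ a (jq J b) := by
  rw [← hJ.kf_q a (hJ.ev_q b), kf_comm, ← hJ.kf_q b (hJ.ev_q a), kf_comm]

theorem mem_q (hJ : IsJ ev J) (a : L) : ev a + I • ev (J a) = 0 := by
  rw [hJ.evJ, I_smul_I, add_neg_cancel]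

theorem J_lie_k (hJ : IsJ ev J) (h : JAlg ev) (hn : NegK ev) {k : L} (hk : ev k = 0) (a : L) :
    J ⁅k, a⁆ = ⁅k, J a⁆ := by
  have h1 := h.integ k 0 a (J a) (by simp [hk]) (hJ.mem_q a)
  simp only [zero_lie, sub_zero, add_zero] at h1
  rw [← sub_eq_zero]
  refine hn.eq_zero ?_ fun k' hk' => ?_
  · rw [map_sub, hJ.evJ, eq_neg_of_add_eq_zero_left h1, smul_neg, I_smul_I, neg_neg, sub_self]
  · rw [map_sub, LinearMap.sub_apply, hJ.perp _ k' hk', kf_lie', hJ.perp _ _ (h.lie_kk hk hk'), neg_zero, sub_self]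

theorem q_lie_k (hJ : IsJ ev J) (h : JAlg ev) (hn : NegK ev) {k : L} (hk : ev k = 0) (a : L) :
    jq J ⁅k, a⁆ = ⁅k, jq J a⁆ := by
  rw [jq_apply, jq_apply, hJ.J_lie_k h hn hk, hJ.J_lie_k h hn hk, lie_add]

/-- integrability -/
theorem nij (hJ : IsJ ev J) (h : JAlg ev) (a b : L) :
    J (⁅a, J b⁆ + ⁅J a, b⁆) = J (J (⁅a, b⁆ - ⁅J a, J b⁆)) := by
  refine hJ.J_congr ?_
  have h1 := h.integ a (J a) b (J b) (hJ.mem_q a) (hJ.mem_q b)
  rw [hJ.evJ, eq_neg_of_add_eq_zero_left h1, smul_neg, I_smul_I, neg_neg]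

theorem trace_q (hJ : IsJ ev J) (h : JAlg ev) (hn : NegK ev) {m : L} (hm : jq J m = 0) :
    LinearMap.trace ℝ L (jq J * LieAlgebra.ad ℝ L m) = 0 := by
  have h1 : jq J * LieAlgebra.ad ℝ L m = jq J * (jq J * LieAlgebra.ad ℝ L m) := by
    ext x; simp only [Module.End.mul_apply, hJ.q_q]
  have h2 : jq J * LieAlgebra.ad ℝ L m * jq J = 0 := by
    ext x
    simp only [Module.End.mul_apply, LieAlgebra.ad_apply, LinearMap.zero_apply]
    rw [← lie_skew, map_neg, hJ.q_lie_k h hn (hJ.ev_q x), hm, lie_zero, neg_zero]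
  rw [h1, LinearMap.trace_mul_comm, h2, map_zero]

end IsJ

end Crest.Agent.R264
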