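import Crest.Agent.R264.JA.Lin

/-! JA: the minimal vector argument (Richardson, Donaldson).

`B` the Killing form, `H x y = -B x (θ y)` positive definite, `e` an `H`-orthonormal basis (`ja_onb` with `R = 0`).
For `B`-skew `X` the `H`-adjoint is `-θ X θ`.  `⟨F,G⟩ = -tr (θ F θ G) = Σ_j H (F e_j) (G e_j)` for `B`-skew `F`.
`D = ad a`, `D' = θ D θ`, `u x = [D', ad x] - ad (D' x)` (`B`-skew), `X = D D' - D' D`, `θ X θ = -X`.
`⟨[Y,F],G⟩ = -⟨F,[θ Y θ,G]⟩` and `Σ g (Y e_i) e_i = Σ g e_i (Y* e_i)` for bilinear `g` give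
`Σ ⟨u e_i, u e_i⟩ = -Σ ⟨[D, u e_i] - u (D e_i), ad e_i⟩ = -Σ ⟨[X, ad e_i] - ad (X e_i), ad e_i⟩`.
`Q x y = ⟨ad x, ad y⟩` satisfies `Q k y = -B k y` for `θ k = k`, so `Q (θ x) (θ y) = Q x y`, so `Σ Q (X e_i) e_i = 0`;
`Σ_i ⟨[X, ad e_i], ad e_i⟩ = Σ_j Q (θ X e_j) (θ e_j) - Σ_j Q (X e_j) e_j = 0`.  So `u = 0`: `D'` is a derivation;
evaluate `D' ⁅k,b⁆ = ⁅D' k,b⁆ + ⁅k,D' b⁆`. -/

set_option autoImplicit false
set_option linter.unusedSectionVars false
open Complex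

namespace Crest.Agent.R264

variable {L : Type} [LieRing L] [LieAlgebra ℝ L] [FiniteDimensional ℝ L]

theorem don_adj {n : ℕ} {e : Fin n → L} {H : LinearMap.BilinForm ℝ L} (hs : ∀ x y, H x y = H y x)
    (he : ∀ x, ∑ i, H x (e i) • e i = x) {Y Y' : L → L} (hY : ∀ x y, H (Y x) y = H x (Y' y))
    (g : L →ₗ[ℝ] L →ₗ[ℝ] ℝ) : ∑ i, g (Y (e i)) (e i) = ∑ i, g (e i) (Y' (e i)) := by
  have h1 : ∀ i, g (Y (e i)) (e i) = ∑ p, H (Y (e i)) (e p) * g (e p) (e i) := fun i => by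
    conv_lhs => rw [← he (Y (e i))]
    simp only [map_sum, map_smul, LinearMap.sum_apply, LinearMap.smul_apply, smul_eq_mul]
  have h2 : ∀ p, g (e p) (Y' (e p)) = ∑ i, H (Y (e i)) (e p) * g (e p) (e i) := fun p => by
    conv_lhs => rw [← he (Y' (e p))]
    simp only [map_sum, map_smul, smul_eq_mul, hY, hs (Y' (e p))]
  simp only [h1, h2]
  exact Finset.sum_comm

/-- triple sums -/
def donS {n : ℕ} (e : Fin n → L) (F : L → L → L → ℝ) : ℝ := ∑ l, ∑ i, ∑ j, F (e i) (e j) (e l)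

theorem don_cyc {n : ℕ} (e : Fin n → L) (F : L → L → L → ℝ) : donS e (fun x y z => F y z x) = donS e F := by
  unfold donS
  rw [Finset.sum_comm]
  exact Finset.sum_congr rfl fun i _ => Finset.sum_comm

theorem don_three {n : ℕ} (e : Fin n → L) {T G : L → L → L → ℝ} (hT : ∀ x y z, T x y z = T y z x)
    (hG : ∀ x y z, G x y z = G y z x) (Y : L → L) :
    donS e (fun x y z => (T (Y x) y z + T x (Y y) z + T x y (Y z)) * G x y z) =
      3 * donS e fun x y z => T x y (Y z) * G x y z := by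
  have h1 := don_cyc e fun x y z => T x y (Y z) * G x y z
  have h2 := don_cyc e fun x y z => T y z (Y x) * G y z x
  have h3 : donS e (fun x y z => (T (Y x) y z + T x (Y y) z + T x y (Y z)) * G x y z) =
      donS e (fun x y z => T y z (Y x) * G y z x) + donS e (fun x y z => T z x (Y y) * G z x y) +
        donS e fun x y z => T x y (Y z) * G x y z := by
    simp only [donS, ← Finset.sum_add_distrib]
    refine Finset.sum_congr rfl fun l _ => Finset.sum_congr rfl fun i _ => Finset.sum_congr rfl fun j _ => ?_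
    rw [← hT (Y (e i)), ← hG (e i), hT (e l) (e i), hG (e l)]
    ring
  rw [h3, h2, h1]
  ring

/-- the pairing in the first two slots -/
noncomputable def donP {n : ℕ} (e : Fin n → L) (S T : L → L → L →ₗ[ℝ] ℝ) : L →ₗ[ℝ] L →ₗ[ℝ] ℝ :=
  ∑ i, ∑ j, (LinearMap.mul ℝ ℝ).compl₁₂ (S (e i) (e j)) (T (e i) (e j))

theorem donP_apply {n : ℕ} (e : Fin n → L) (S T : L → L → L →ₗ[ℝ] ℝ) (x y : L) :
    donP e S T x y = ∑ i, ∑ j, S (e i) (e j) x * T (e i) (e j) y := by
  simp only [donP, LinearMap.sum_apply, LinearMap.compl₁₂_apply, LinearMap.mul_apply']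

theorem ja_don (θ : L →ₗ[ℝ] L) (hθθ : ∀ x, θ (θ x) = x)
    (hθB : ∀ x y, killingForm ℝ L (θ x) y = killingForm ℝ L x (θ y))
    (hneg : ∀ x, x ≠ 0 → killingForm ℝ L x (θ x) < 0)
    (hk : ∀ k, θ k = k → ∀ x, θ ⁅k, x⁆ = ⁅k, θ x⁆) {k a b : L} (h1 : θ k = k) (h2 : θ a = -a) (h3 : θ b = -b) :
    θ ⁅⁅k, a⁆, b⁆ = ⁅⁅k, a⁆, b⁆ := by
  set B := killingForm ℝ L with hB
  have hBs : ∀ x y, B x y = B y x := fun x y => LieModule.traceForm_comm ℝ L L x y
  have hBi : ∀ x y z, B ⁅x, y⁆ z = B x ⁅y, z⁆ := fun x y z => LieModule.traceForm_apply_lie_apply ℝ L L x y z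
  have hcyc : ∀ x y z, B ⁅x, y⁆ z = B ⁅y, z⁆ x := fun x y z => by rw [hBi, hBs]
  have hsk : ∀ c x y, B ⁅c, x⁆ y = -B x ⁅c, y⁆ := fun c x y => by
    rw [← lie_skew c x, map_neg, LinearMap.neg_apply, hBi]
  let H : LinearMap.BilinForm ℝ L := -(B.compl₂ θ)
  have hH : ∀ x y, H x y = -B x (θ y) := fun x y => rfl
  have hHs : ∀ x y, H x y = H y x := fun x y => by rw [hH, hH, ← hθB, hBs]
  obtain ⟨n, e, -, he, -, -, htr⟩ := ja_onb H hHs (fun x hx => by rw [hH]; linarith [hneg x hx]) 0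
    (fun x y => by simp)
  let D : L →ₗ[ℝ] L := LieAlgebra.ad ℝ L a
  let D' : L →ₗ[ℝ] L := θ ∘ₗ D ∘ₗ θ
  have hD : ∀ x, D x = ⁅a, x⁆ := fun x => rfl
  have hD' : ∀ x, D' x = θ ⁅a, θ x⁆ := fun x => rfl
  let X : L →ₗ[ℝ] L := D ∘ₗ D' - D' ∘ₗ D
  have hX : ∀ x, X x = D (D' x) - D' (D x) := fun x => rfl
  have hXθ : ∀ x, X (θ x) = -θ (X x) := fun x => by
    simp only [hX, hD, hD', hθθ, map_sub, neg_sub]
  let w : L → L → L →ₗ[ℝ] ℝ := fun x y => B ⁅x, y⁆
  let v : L → L → L →ₗ[ℝ] ℝ := fun x y => B ⁅D' x, y⁆ + B ⁅x, D' y⁆ + B ⁅x, y⁆ ∘ₗ D'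
  have hv : ∀ x y z, v x y z = B ⁅D' x, y⁆ z + B ⁅x, D' y⁆ z + B ⁅x, y⁆ (D' z) := fun x y z => rfl
  have hvc : ∀ x y z, v x y z = v y z x := fun x y z => by
    rw [hv, hv, hcyc (D' x), hcyc x (D' y), hcyc x y]
    ring
  have hder : ∀ x y z, B ⁅D x, y⁆ z + B ⁅x, D y⁆ z + B ⁅x, y⁆ (D z) = 0 := fun x y z => by
    have := hsk a ⁅x, y⁆ z
    rw [leibniz_lie, map_add, LinearMap.add_apply] at this
    simp only [hD]
    linarith
  -- the form `Q`
  have hpar : ∀ x y, ∑ j, B x (e j) * B y (e j) = -B (θ x) y := fun x y => by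
    have h4 : ∀ u j, B u (e j) = -H (θ u) (e j) := fun u j => by rw [hH, neg_neg, hθB, hθθ]
    have h5 : H (θ x) (θ y) = ∑ j, H (θ x) (e j) * H (θ y) (e j) := by
      conv_lhs => rw [← he (θ y)]
      simp only [map_sum, map_smul, smul_eq_mul, mul_comm]
    simp only [h4, neg_mul_neg]
    rw [← h5, hH, hθθ]
  have hQk : ∀ k', θ k' = k' → ∀ y, donP e w w k' y = -B k' y := fun k' hk' y => by
    have h4 : B k' y = ∑ i, H ⁅k', ⁅y, e i⁆⁆ (e i) :=
      htr (LieAlgebra.ad ℝ L k' ∘ₗ LieAlgebra.ad ℝ L y)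
    rw [donP_apply, h4, ← Finset.sum_neg_distrib]
    refine Finset.sum_congr rfl fun i _ => ?_
    have h5 : ∀ u j, w (e i) (e j) u = B ⁅u, e i⁆ (e j) := fun u j => (hcyc u (e i) (e j)).symm
    simp only [h5]
    rw [hpar, hk k' hk', hsk, hH, neg_neg, neg_neg, hBs]
  have hQs : ∀ x y, donP e w w x y = donP e w w y x := fun x y => by
    simp only [donP_apply, mul_comm]
  have hQθ : ∀ x y, donP e w w (θ x) (θ y) = donP e w w x y := by
    have h4 : ∀ x y, donP e w w (x + θ x) (y - θ y) = 0 := fun x y => by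
      have h5 : θ (x + θ x) = x + θ x := by rw [map_add, hθθ, add_comm]
      have h6 := hθB (x + θ x) (y - θ y)
      rw [h5, map_sub θ, hθθ, ← neg_sub y, map_neg] at h6
      rw [hQk _ h5]
      linarith
    intro x y
    have h5 := h4 x y
    have h6 := h4 y x
    simp only [map_add, map_sub, LinearMap.add_apply] at h5 h6
    rw [hQs y x, hQs y (θ x), hQs (θ y) x, hQs (θ y) (θ x)] at h6
    linarith
  have hQX : ∑ l, donP e w w (X (e l)) (e l) = 0 := by
    have h4 := don_adj hHs he (Y := θ) (Y' := θ) (fun x y => by rw [hH, hH, hθB]) (donP e w w ∘ₗ X ∘ₗ θ)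
    have h5 : ∑ l, donP e w w (X (θ (e l))) (θ (e l)) = -∑ l, donP e w w (X (e l)) (e l) := by
      simp only [hXθ, map_neg, LinearMap.neg_apply, hQθ, Finset.sum_neg_distrib]
    simp only [LinearMap.comp_apply, hθθ] at h4
    linarith
  -- the norm of `v`
  have hN : donS e (fun x y z => v x y z * v x y z) = 0 := by
    have s1 : donS e (fun x y z => v x y z * v x y z) = 3 * ∑ l, donP e w v (D' (e l)) (e l) := by
      simp only [donP_apply]
      exact don_three e (T := fun x y z => B ⁅x, y⁆ z) (G := fun x y z => v x y z) hcyc hvc D'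
    have s2 := don_adj hHs he (Y := D') (Y' := fun x => -D x) (fun x y => by
      rw [hH, hH, hD', hθB, hθθ, hsk, hθB, map_neg, map_neg, hD]) (donP e w v)
    have s3 : donS e (fun x y z => (v (D x) y z + v x (D y) z + v x y (D z)) * B ⁅x, y⁆ z) =
        3 * ∑ l, donP e w v (e l) (D (e l)) := by
      simp only [donP_apply, mul_comm (w _ _ _)]
      exact don_three e (T := fun x y z => v x y z) (G := fun x y z => B ⁅x, y⁆ z) hvc hcyc D
    have s4 : donS e (fun x y z => (B ⁅X x, y⁆ z + B ⁅x, X y⁆ z + B ⁅x, y⁆ (X z)) * B ⁅x, y⁆ z) =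
        3 * ∑ l, donP e w w (X (e l)) (e l) := by
      simp only [donP_apply]
      exact don_three e (T := fun x y z => B ⁅x, y⁆ z) (G := fun x y z => B ⁅x, y⁆ z) hcyc hcyc X
    have s5 : donS e (fun x y z => (v (D x) y z + v x (D y) z + v x y (D z)) * B ⁅x, y⁆ z) =
        -donS e (fun x y z => (B ⁅X x, y⁆ z + B ⁅x, X y⁆ z + B ⁅x, y⁆ (X z)) * B ⁅x, y⁆ z) := by
      simp only [donS, ← Finset.sum_neg_distrib]
      refine Finset.sum_congr rfl fun l _ => Finset.sum_congr rfl fun i _ => Finset.sum_congr rfl fun j _ => ?_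
      rw [← neg_mul]
      congr 1
      have d1 := hder (D' (e i)) (e j) (e l)
      have d2 := hder (e i) (D' (e j)) (e l)
      have d3 := hder (e i) (e j) (D' (e l))
      simp only [hv, hX, sub_lie, lie_sub, map_sub, LinearMap.sub_apply]
      linarith
    simp only [map_neg, Finset.sum_neg_distrib] at s2
    rw [hQX] at s4
    linarith
  have hz : ∀ i j l, v (e i) (e j) (e l) = 0 := by
    intro i j l
    have h4 := (Finset.sum_eq_zero_iff_of_nonneg fun l _ => Finset.sum_nonneg fun i _ =>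
      Finset.sum_nonneg fun j _ => mul_self_nonneg (v (e i) (e j) (e l))).1 hN l (Finset.mem_univ _)
    have h5 := (Finset.sum_eq_zero_iff_of_nonneg fun i _ =>
      Finset.sum_nonneg fun j _ => mul_self_nonneg (v (e i) (e j) (e l))).1 h4 i (Finset.mem_univ _)
    exact mul_self_eq_zero.1 ((Finset.sum_eq_zero_iff_of_nonneg fun j _ =>
      mul_self_nonneg (v (e i) (e j) (e l))).1 h5 j (Finset.mem_univ _))
  have hext : ∀ f : L →ₗ[ℝ] ℝ, (∀ l, f (e l) = 0) → ∀ z, f z = 0 := fun f hf z => by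
    rw [← he z]
    simp only [map_sum, map_smul, hf, smul_zero, Finset.sum_const_zero]
  have hv0 : ∀ x y z, v x y z = 0 := by
    have h4 : ∀ i j z, v z (e i) (e j) = 0 := fun i j z => by
      rw [hvc]
      exact hext _ (hz i j) z
    have h5 : ∀ i y z, v y z (e i) = 0 := fun i y z => by
      rw [hvc]
      exact hext _ (fun j => h4 i j z) y
    exact fun x y => hext _ fun i => h5 i x y
  have hD'der : ⁅D' k, b⁆ + ⁅k, D' b⁆ - D' ⁅k, b⁆ = 0 := by
    by_contra hne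
    have h4 := hneg _ hne
    have h5 := hv0 k b (θ (⁅D' k, b⁆ + ⁅k, D' b⁆ - D' ⁅k, b⁆))
    generalize θ (⁅D' k, b⁆ + ⁅k, D' b⁆ - D' ⁅k, b⁆) = z at h4 h5
    have h6 : B (D' ⁅k, b⁆) z = -B ⁅k, b⁆ (D' z) := by
      rw [hD', hD', hθB, hsk, hθB]
    rw [hv] at h5
    simp only [map_add, map_sub, LinearMap.add_apply, LinearMap.sub_apply] at h4
    linarith
  have e1 : D' k = ⁅k, a⁆ := by rw [hD', h1, ← lie_skew a k, map_neg, hk k h1, h2, lie_neg, neg_neg]
  have e2 : D' b = -θ ⁅a, b⁆ := by rw [hD', h3, lie_neg, map_neg]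
  have e3 : D' ⁅k, b⁆ = -θ ⁅a, ⁅k, b⁆⁆ := by rw [hD', hk k h1, h3, lie_neg, lie_neg, map_neg]
  rw [e1, e2, e3, lie_neg, ← hk k h1, leibniz_lie k a b, map_add] at hD'der
  rw [← sub_eq_zero, ← neg_eq_zero, ← hD'der]
  abel

end Crest.Agent.R264
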