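import Crest.Agent.R264.Defs

/-! JA: linear algebra (traces, orthonormal eigenbases). -/

set_option autoImplicit false
set_option linter.unusedSectionVars false
open Complex

namespace Crest.Agent.R264

variable {M : Type} [AddCommGroup M] [Module ℝ M] [FiniteDimensional ℝ M]

theorem ja_trace_re {Ξ : Type} [AddCommGroup Ξ] [Module ℂ Ξ] [Module ℝ Ξ] [IsScalarTower ℝ ℂ Ξ]
    [FiniteDimensional ℂ Ξ] (Λ : Ξ →ₗ[ℂ] Ξ) :
    LinearMap.trace ℝ Ξ (Λ.restrictScalars ℝ) = 2 * (LinearMap.trace ℂ Ξ Λ).re := by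
  classical
  let b := Module.finBasis ℂ Ξ
  rw [LinearMap.trace_eq_matrix_trace ℝ (Complex.basisOneI.smulTower' b), LinearMap.trace_eq_matrix_trace ℂ b,
    LinearMap.restrictScalars_toMatrix]
  simp only [Matrix.trace, Matrix.diag_apply, Complex.re_sum, Finset.mul_sum, Fintype.sum_prod_type,
    Matrix.comp_apply, Matrix.map_apply, Algebra.leftMulMatrix_complex, Fin.sum_univ_two]
  refine Finset.sum_congr rfl fun i _ => ?_
  simp
  ring

/-- real trace versus complex trace.  `s` a real right inverse of `e`, `F = F s e`, `tr F = tr (e F s) = tr_ℝ Λ`;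
`tr_ℝ Λ = 2 Re tr_ℂ Λ` by writing `Λ` as a sum of rank one maps (`LinearMap.trace_smulRight`). -/
theorem ja_trace {Ξ : Type} [AddCommGroup Ξ] [Module ℂ Ξ] [Module ℝ Ξ] [IsScalarTower ℝ ℂ Ξ]
    [FiniteDimensional ℂ Ξ] (e : M →ₗ[ℝ] Ξ) (he : Function.Surjective e) (F : M →ₗ[ℝ] M) (Λ : Ξ →ₗ[ℂ] Ξ)
    (h : ∀ x, Λ (e x) = e (F x)) (hk : ∀ x, e x = 0 → F x = 0) :
    LinearMap.trace ℝ M F = 2 * (LinearMap.trace ℂ Ξ Λ).re := by
  have : FiniteDimensional ℝ Ξ := Module.Finite.trans ℂ Ξ
  obtain ⟨s, hs⟩ := e.exists_rightInverse_of_surjective (LinearMap.range_eq_top.2 he)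
  have hs' : ∀ y, e (s y) = y := fun y => LinearMap.congr_fun hs y
  have h1 : F = (F ∘ₗ s) ∘ₗ e := by
    ext x
    have := hk (x - s (e x)) (by rw [map_sub, hs', sub_self])
    rw [map_sub, sub_eq_zero] at this
    exact this
  have h2 : e ∘ₗ (F ∘ₗ s) = Λ.restrictScalars ℝ := by
    ext y
    simp only [LinearMap.comp_apply, LinearMap.restrictScalars_apply]
    rw [← h, hs']
  rw [← ja_trace_re, ← h2, LinearMap.trace_comp_comm', ← h1]

/-- orthonormal eigenbasis of an `H`-symmetric operator (`InnerProductSpace.Core`,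
`LinearMap.IsSymmetric.eigenvectorBasis`, `LinearMap.trace_eq_sum_inner`) -/
theorem ja_onb (H : LinearMap.BilinForm ℝ M) (hs : ∀ x y, H x y = H y x) (hp : ∀ x, x ≠ 0 → 0 < H x x)
    (R : M →ₗ[ℝ] M) (hR : ∀ x y, H (R x) y = H x (R y)) :
    ∃ (n : ℕ) (e : Fin n → M) (μ : Fin n → ℝ), (∀ x, ∑ i, H x (e i) • e i = x) ∧
      (∀ i, R (e i) = μ i • e i) ∧ (∀ i, H (e i) (e i) = 1) ∧
      ∀ F : M →ₗ[ℝ] M, LinearMap.trace ℝ M F = ∑ i, H (F (e i)) (e i) := by
  let cd : InnerProductSpace.Core ℝ M :=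
    { inner := fun x y => H x y
      conj_inner_symm := fun x y => by simp [hs x y]
      re_inner_nonneg := fun x => by
        by_cases hx : x = 0
        · simp [hx]
        · exact (hp x hx).le
      add_left := fun x y z => by simp
      smul_left := fun x y r => by simp
      definite := fun x hx => by
        by_contra h
        exact (hp x h).ne' hx }
  let _ : NormedAddCommGroup M := @InnerProductSpace.Core.toNormedAddCommGroup ℝ M _ _ _ cd
  let _ : InnerProductSpace ℝ M := InnerProductSpace.ofCore cd.toCore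
  have hin : ∀ x y : M, inner ℝ x y = H x y := fun _ _ => rfl
  have hT : R.IsSymmetric := fun x y => by rw [hin, hin, hR]
  let b := hT.eigenvectorBasis rfl
  refine ⟨_, b, hT.eigenvalues rfl, fun x => ?_, fun i => hT.apply_eigenvectorBasis rfl i, fun i => ?_, fun F => ?_⟩
  · conv_rhs => rw [← b.sum_repr' x]
    refine Finset.sum_congr rfl fun i _ => ?_
    rw [hin, hs]
  · rw [← hin]
    exact b.inner_eq_one i
  · rw [LinearMap.trace_eq_sum_inner F b]
    refine Finset.sum_congr rfl fun i _ => ?_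
    rw [hin, hs]

end Crest.Agent.R264
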