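import Crest.Agent.R264.JA.Psi

/-! JA: `ja1`. -/

set_option autoImplicit false
set_option linter.unusedSectionVars false
open Complex

namespace Crest.Agent.R264

variable {L V : Type} [LieRing L] [LieAlgebra ℝ L] [FiniteDimensional ℝ L]
  [AddCommGroup V] [Module ℂ V] [Module ℝ V] [IsScalarTower ℝ ℂ V] [FiniteDimensional ℂ V]
  {ev : L →ₗ[ℝ] V} {J : L →ₗ[ℝ] L}

local notation "κ" => killingForm ℝ L

/-- the bilinear form `ψ [x, J y]` -/
def jb (J : L →ₗ[ℝ] L) (ψ : L →ₗ[ℝ] ℝ) : LinearMap.BilinForm ℝ L :=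
  LinearMap.mk₂ ℝ (fun x y => ψ ⁅x, J y⁆) (fun x x' y => by simp only [add_lie, map_add])
    (fun c x y => by simp only [smul_lie, map_smul]) (fun x y y' => by simp only [lie_add, map_add])
    (fun c x y => by simp only [lie_smul, map_smul])

theorem jb_apply (ψ : L →ₗ[ℝ] ℝ) (x y : L) : jb J ψ x y = ψ ⁅x, J y⁆ := rfl

/-- the inner product `ψ [x, J y] - B (Q x) (Q y)` -/
noncomputable def jH (J : L →ₗ[ℝ] L) (ψ : L →ₗ[ℝ] ℝ) : LinearMap.BilinForm ℝ L :=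
  jb J ψ - (κ).compl₁₂ (jq J) (jq J)

theorem jH_apply (ψ : L →ₗ[ℝ] ℝ) (x y : L) : jH J ψ x y = ψ ⁅x, J y⁆ - κ (jq J x) (jq J y) := rfl

theorem jH_symm {ψ : L →ₗ[ℝ] ℝ} (hs : ∀ a b, ψ ⁅a, J b⁆ = ψ ⁅b, J a⁆) (x y : L) : jH J ψ x y = jH J ψ y x := by
  rw [jH_apply, jH_apply, hs, kf_comm]

theorem IsJ.jH_pos (hJ : IsJ ev J) (hn : NegK ev) {ψ : L →ₗ[ℝ] ℝ} (hp : ∀ a, ev a ≠ 0 → 0 < ψ ⁅a, J a⁆) (x : L)
    (hx : x ≠ 0) : 0 < jH J ψ x x := by
  rw [jH_apply]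
  by_cases h0 : ev x = 0
  · rw [hJ.ker x h0, hJ.q_k h0, lie_zero, map_zero]
    linarith [hn x h0 hx]
  · linarith [hp x h0, hn.nonpos (hJ.ev_q x)]

/-- the Koszul form of an abelian ideal -/
theorem IsJ.exists_phi (hJ : IsJ ev J) (h : JAlg ev) (hn : NegK ev) (𝔞 : LieIdeal ℝ L) [IsLieAbelian 𝔞] :
    ∃ φ : L →ₗ[ℝ] ℝ, (∀ a b, φ ⁅a, J b⁆ = φ ⁅b, J a⁆) ∧ (∀ a, 0 ≤ φ ⁅a, J a⁆) ∧
      (∀ a ∈ 𝔞, a ≠ 0 → 0 < φ ⁅a, J a⁆) ∧ ∀ k, ev k = 0 → φ k = 0 := by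
  obtain ⟨ψ, hjj, -, hpos, -⟩ := hJ.exists_kos h hn
  have h1 : ∀ x ∈ 𝔞, ev x = 0 → x = 0 := by
    intro x hx h0
    refine hn.eq_zero h0 fun k _ => ?_
    rw [kf_comm]
    exact (LieIdeal.mem_killingCompl ℝ L ⊤).1 (𝔞.le_killingCompl_top_of_isLieAbelian ℝ L hx) k trivial
  let M : Submodule ℝ L := 𝔞.toSubmodule
  let e : (M × M) →ₗ[ℝ] V := ev ∘ₗ (M.subtype ∘ₗ LinearMap.fst ℝ M M + J ∘ₗ M.subtype ∘ₗ LinearMap.snd ℝ M M)
  have he : ∀ x y : M, e (x, y) = ev x + I • ev y := by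
    intro x y
    simp [e, hJ.evJ]
  have hinj : ∀ p, e p = 0 → p = 0 := by
    rintro ⟨x, y⟩ hp
    rw [he] at hp
    have e1 : ev ((y : L) - J x) = 0 := by
      rw [map_sub, hJ.evJ, eq_neg_of_add_eq_zero_left hp, smul_neg, I_smul_I, neg_neg, sub_self]
    have e2 : ψ ⁅(x : L), (y : L) - J x⁆ = 0 := by
      rw [← hjj, hJ.ker _ e1, lie_zero, map_zero]
    have e3 : ⁅(x : L), (y : L)⁆ = 0 :=
      congrArg Subtype.val (trivial_lie_zero 𝔞 𝔞 ⟨x, x.2⟩ ⟨y, y.2⟩)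
    rw [lie_sub, e3, map_sub, map_zero] at e2
    have e4 : ev x = 0 := by
      by_contra hne
      linarith [hpos x hne]
    have e5 : (x : L) = 0 := h1 x x.2 e4
    rw [e5, map_zero, sub_zero] at e1
    exact Prod.ext (Subtype.ext e5) (Subtype.ext (h1 y y.2 e1))
  let Ξ : Submodule ℂ V :=
    { carrier := Set.range e
      add_mem' := by rintro _ _ ⟨a, rfl⟩ ⟨b, rfl⟩; exact ⟨a + b, map_add _ _ _⟩
      zero_mem' := ⟨0, map_zero _⟩
      smul_mem' := by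
        rintro c _ ⟨⟨x, y⟩, rfl⟩
        refine ⟨c.re • (x, y) + c.im • (-y, x), ?_⟩
        rw [smul_eq_re_im c, map_add, map_smul, map_smul, he, he, smul_add I, I_smul_I]
        simp only [Submodule.coe_neg, map_neg]
        rw [add_comm (-ev y)] }
  have hm : ∀ p, e p ∈ Ξ := fun p => ⟨p, rfl⟩
  have hl : ∀ (x : M) (A : L), ⁅(x : L), A⁆ ∈ M := fun x A => by
    rw [← lie_skew]; exact M.neg_mem (𝔞.lie_mem x.2)
  have hF : ∀ A B, ev A + I • ev B = 0 → ∀ (a : L) (x y : M), ev a = e (x, y) →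
      ev ⁅a, A⁆ + I • ev ⁅a, B⁆ = e (⟨_, hl x A⟩ - ⟨_, hl y B⟩, ⟨_, hl x B⟩ + ⟨_, hl y A⟩) := by
    intro A B hW a x y hxy
    rw [← jF_apply, h.jF_congr hW (b := x + J y) (by rw [hxy, he, map_add, hJ.evJ]), map_add, hJ.jF_J h hW, he]
    simp only [jF_apply, Submodule.coe_sub, Submodule.coe_add, map_sub, map_add, smul_add, I_smul_I]
    abel
  obtain ⟨φ, hφ⟩ := hJ.exists_psi h (Ξ := Ξ) (by
    rintro _ ⟨⟨x, y⟩, rfl⟩
    exact ⟨x + J y, by rw [he, map_add, hJ.evJ]⟩) (by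
    rintro A B hW a ⟨⟨x, y⟩, hxy⟩
    rw [hF A B hW a x y hxy.symm]
    exact hm _)
  refine ⟨φ, hφ.sym, hφ.nn, fun a ha hne => hφ.pos a ⟨(⟨a, ha⟩, 0), by simp [he]⟩ fun h0 => hne (h1 a ha h0),
    fun k hk => ?_⟩
  have hW : ev k + I • ev (0 : L) = 0 := by simp [hk]
  obtain ⟨Λ, hΛ, htr⟩ := hφ.tr k 0 hW
  let g : M →ₗ[ℝ] M := (-LieAlgebra.ad ℝ L k).restrict (p := M) (q := M) fun x hx =>
    M.neg_mem (𝔞.lie_mem hx)
  have hg : ∀ x : M, (g x : L) = ⁅(x : L), k⁆ := fun x => by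
    rw [← lie_skew]; rfl
  have := ja_trace (M := M × M) (Ξ := Ξ) (jcod e Ξ hm) (by rintro ⟨_, p, rfl⟩; exact ⟨p, rfl⟩)
    (LinearMap.inl ℝ M M ∘ₗ ((-g) ∘ₗ LinearMap.snd ℝ M M) + LinearMap.inr ℝ M M ∘ₗ (g ∘ₗ LinearMap.fst ℝ M M))
    (I • Λ) (by
      rintro ⟨x, y⟩
      refine Subtype.ext ?_
      have e1 : ev (x + J y) = e (x, y) := by rw [he, map_add, hJ.evJ]
      have e2 : jcod e Ξ hm (x, y) = ⟨ev (x + J y), by rw [e1]; exact hm _⟩ := Subtype.ext e1.symm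
      show I • (Λ (jcod e Ξ hm (x, y)) : V) = e (-g y + 0, 0 + g x)
      rw [e2, hΛ, hF k 0 hW _ x y e1, he, he]
      simp only [add_zero, zero_add, Submodule.coe_neg, hg, Submodule.coe_sub, Submodule.coe_add, lie_zero,
        sub_zero, smul_add, I_smul_I, map_neg]
      abel) (by
      intro p hp
      rw [hinj p (congrArg Subtype.val hp), map_zero])
  rw [map_add, LinearMap.trace_comp_comm' ((-g) ∘ₗ LinearMap.snd ℝ M M),
    LinearMap.trace_comp_comm' (g ∘ₗ LinearMap.fst ℝ M M), LinearMap.comp_assoc, LinearMap.comp_assoc,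
    LinearMap.snd_comp_inl, LinearMap.fst_comp_inr, LinearMap.comp_zero, LinearMap.comp_zero, map_zero,
    map_smul, htr] at this
  simp only [smul_eq_mul, mul_re, I_re, sub_re, ofReal_re, zero_mul, I_im, ofReal_im, mul_zero, sub_self,
    zero_sub, sub_im, mul_im, one_mul, zero_add, sub_zero, map_zero] at this
  linarith

theorem ja1' (h : JAlg ev) (hn : NegK ev) (hu : ∀ a, LinearMap.trace ℝ L (LieAlgebra.ad ℝ L a) = 0) :
    LieAlgebra.IsKilling ℝ L := by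
  rw [← LieAlgebra.hasTrivialRadical_iff_isKilling, LieAlgebra.hasTrivialRadical_iff_no_abelian_ideals]
  intro 𝔞 hab
  obtain ⟨J, hJ⟩ := exists_isJ h hn
  obtain ⟨ψ, hjj, hsym, hpos, -⟩ := hJ.exists_kos h hn
  obtain ⟨φ, fsym, fnn, fpos, fk⟩ := hJ.exists_phi h hn 𝔞
  obtain ⟨n, e, μ, hex, -, -, htr⟩ := ja_onb (jH J ψ) (jH_symm hsym) (hJ.jH_pos hn hpos) 0 (by simp)
  have hk : ∀ k, ev k = 0 → ∀ a, ψ ⁅a, k⁆ = 0 := fun k hk a => by
    rw [← hjj, hJ.ker k hk, lie_zero, map_zero]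
  set w : L := ∑ i, φ (J (e i)) • e i with hw
  have h1 : ∀ y, jH J ψ w y = φ (J y) := by
    intro y
    conv_rhs => rw [← hex y]
    simp only [hw, map_sum, map_smul, LinearMap.sum_apply, LinearMap.smul_apply, smul_eq_mul]
    exact Finset.sum_congr rfl fun i _ => by rw [jH_symm hsym, mul_comm]
  have h2 : jq J w = 0 := by
    refine hn.eq_zero (hJ.ev_q w) fun k hk => ?_
    have := h1 k
    rw [jH_apply, hJ.ker k hk, hJ.q_k hk, lie_zero, map_zero, map_zero] at this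
    linarith
  have h3 : ∀ x, ψ ⁅w, x⁆ = φ x := by
    intro x
    have e1 := h1 (J x)
    rw [jH_apply, h2, map_zero, LinearMap.zero_apply, sub_zero] at e1
    have e2 := hk _ (hJ.ev_q x) w
    have e3 := fk _ (hJ.ev_q x)
    rw [jq_apply, lie_add, map_add] at e2
    rw [jq_apply, map_add] at e3
    linarith
  set T := LieAlgebra.ad ℝ L w with hT
  have t1 : LinearMap.trace ℝ L (J * (J * T)) = 0 := by
    have := hJ.trace_q h hn h2
    rwa [jq, add_mul, one_mul, map_add, hu, zero_add, mul_assoc] at this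
  have t2 : LinearMap.trace ℝ L (J * (T * J)) = 0 := by
    rw [← t1, ← mul_assoc, LinearMap.trace_mul_comm]
  rw [htr] at t1 t2
  have t3 : ∑ i, jb J φ (e i) (e i) = 0 := by
    rw [← neg_eq_zero, ← add_zero (0 : ℝ)]
    nth_rw 1 [← t1, ← t2]
    rw [← Finset.sum_add_distrib, ← Finset.sum_neg_distrib]
    refine Finset.sum_congr rfl fun i _ => ?_
    simp only [jH_apply, Module.End.mul_apply, hJ.q_J, map_zero, LinearMap.zero_apply, sub_zero, hjj, hT,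
      LieAlgebra.ad_apply, jb_apply]
    rw [← h3, leibniz_lie, map_add, hsym ⁅w, e i⁆, ← lie_skew (J ⁅w, e i⁆), ← lie_skew ⁅w, J (e i)⁆, map_neg,
      map_neg]
    ring
  replace t3 := (Finset.sum_eq_zero_iff_of_nonneg (fun i _ => fnn (e i))).1 t3
  have t4 : ∀ i, jb J φ (e i) = 0 := fun i =>
    (LinearMap.BilinForm.apply_apply_same_eq_zero_iff (jb J φ) fnn ⟨fun x y => fsym x y⟩).1
      (t3 i (Finset.mem_univ i))
  rw [eq_bot_iff]
  intro a ha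
  by_contra hne
  have t5 : jb J φ a = 0 := by
    rw [← hex a]
    simp only [map_sum, map_smul, t4, smul_zero, Finset.sum_const_zero]
  have := fpos a ha hne
  rw [← jb_apply, t5] at this
  exact lt_irrefl _ this

end Crest.Agent.R264
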