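import Crest.Agent.R264.JA.Base

/-! JA: the Koszul forms `ψ_Ξ`. -/

set_option autoImplicit false
set_option linter.unusedSectionVars false
open Complex

namespace Crest.Agent.R264

variable {L V : Type} [LieRing L] [LieAlgebra ℝ L] [FiniteDimensional ℝ L]
  [AddCommGroup V] [Module ℂ V] [Module ℝ V] [IsScalarTower ℝ ℂ V] [FiniteDimensional ℂ V]
  {ev : L →ₗ[ℝ] V} {J : L →ₗ[ℝ] L}

local notation "κ" => killingForm ℝ L

/-- `a ↦ ev^ℂ [a, A + iB]` -/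
def jF (ev : L →ₗ[ℝ] V) (A B : L) : L →ₗ[ℝ] V where
  toFun a := ev ⁅a, A⁆ + I • ev ⁅a, B⁆
  map_add' a b := by simp only [add_lie, map_add, smul_add]; abel
  map_smul' c a := by simp only [smul_lie, map_smul, RingHom.id_apply, smul_add, I_smul_real]

theorem jF_apply (A B a : L) : jF ev A B a = ev ⁅a, A⁆ + I • ev ⁅a, B⁆ := rfl

theorem JAlg.jF_ker (h : JAlg ev) {A B : L} (hW : ev A + I • ev B = 0) {a : L} (ha : ev a = 0) :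
    jF ev A B a = 0 := by
  simpa [jF_apply] using h.integ a 0 A B (by simp [ha]) hW

theorem JAlg.jF_congr (h : JAlg ev) {A B : L} (hW : ev A + I • ev B = 0) {a b : L} (hab : ev a = ev b) :
    jF ev A B a = jF ev A B b := by
  rw [← sub_eq_zero, ← map_sub]
  exact h.jF_ker hW (by rw [map_sub, hab, sub_self])

theorem IsJ.jF_J (hJ : IsJ ev J) (h : JAlg ev) {A B : L} (hW : ev A + I • ev B = 0) (a : L) :
    jF ev A B (J a) = I • jF ev A B a := by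
  have h1 := h.integ a (J a) A B (hJ.mem_q a) hW
  have h2 : jF ev A B a = -(I • jF ev A B (J a)) := by
    rw [eq_neg_iff_add_eq_zero, ← h1]
    simp only [jF_apply, map_sub, map_add, smul_add, I_smul_I]
    abel
  rw [h2, smul_neg, I_smul_I, neg_neg]

theorem smul_eq_re_im (c : ℂ) (v : V) : c • v = c.re • v + c.im • I • v := by
  conv_lhs => rw [← re_add_im c]
  rw [add_smul, mul_smul, ← algebraMap_smul ℂ c.re v, ← algebraMap_smul ℂ c.im (I • v)]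
  rfl

theorem IsJ.ev_smul (hJ : IsJ ev J) (c : ℂ) (a : L) : ev (c.re • a + c.im • J a) = c • ev a := by
  rw [smul_eq_re_im, map_add, map_smul, map_smul, hJ.evJ]

/-- `Ξ` is stable under all `Λ_W` -/
def Stab (ev : L →ₗ[ℝ] V) (Ξ : Submodule ℂ V) : Prop :=
  ∀ A B, ev A + I • ev B = 0 → ∀ a, ev a ∈ Ξ → ev ⁅a, A⁆ + I • ev ⁅a, B⁆ ∈ Ξ

theorem IsJ.exists_lam (hJ : IsJ ev J) (h : JAlg ev) {Ξ : Submodule ℂ V} (hΞ : ∀ v ∈ Ξ, ∃ a, ev a = v)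
    (hst : Stab ev Ξ) {A B : L} (hW : ev A + I • ev B = 0) :
    ∃ Λ : Ξ →ₗ[ℂ] Ξ, ∀ a (ha : ev a ∈ Ξ), (Λ ⟨ev a, ha⟩ : V) = ev ⁅a, A⁆ + I • ev ⁅a, B⁆ := by
  choose s hs using fun v : Ξ => hΞ v v.2
  refine ⟨⟨⟨fun v => ⟨jF ev A B (s v), hst A B hW _ (by rw [hs]; exact v.2)⟩, fun v w => Subtype.ext ?_⟩,
    fun c v => Subtype.ext ?_⟩, fun a ha => ?_⟩
  · show jF ev A B (s (v + w)) = jF ev A B (s v) + jF ev A B (s w)
    rw [← map_add]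
    exact h.jF_congr hW (by rw [map_add, hs, hs, hs]; rfl)
  · show jF ev A B (s (c • v)) = c • jF ev A B (s v)
    rw [smul_eq_re_im c (jF ev A B (s v)), ← hJ.jF_J h hW, ← map_smul, ← map_smul, ← map_add]
    exact h.jF_congr hW (by rw [hJ.ev_smul, hs, hs]; rfl)
  · exact h.jF_congr hW (hs _)

/-- the properties of the Koszul form of a stable subspace -/
structure Psi (ev : L →ₗ[ℝ] V) (J : L →ₗ[ℝ] L) (Ξ : Submodule ℂ V) (ψ : L →ₗ[ℝ] ℝ) : Prop where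
  tr : ∀ A B, ev A + I • ev B = 0 → ∃ Λ : Ξ →ₗ[ℂ] Ξ,
    (∀ a (h : ev a ∈ Ξ), (Λ ⟨ev a, h⟩ : V) = ev ⁅a, A⁆ + I • ev ⁅a, B⁆) ∧
    LinearMap.trace ℂ Ξ Λ = I * (ψ A : ℂ) - (ψ B : ℂ)
  jj : ∀ a b, ψ ⁅J a, J b⁆ = ψ ⁅a, b⁆
  sym : ∀ a b, ψ ⁅a, J b⁆ = ψ ⁅b, J a⁆
  nn : ∀ a, 0 ≤ ψ ⁅a, J a⁆
  pos : ∀ a, ev a ∈ Ξ → ev a ≠ 0 → 0 < ψ ⁅a, J a⁆

theorem IsJ.exists_psi (hJ : IsJ ev J) (h : JAlg ev) {Ξ : Submodule ℂ V} (hΞ : ∀ v ∈ Ξ, ∃ a, ev a = v)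
    (hst : Stab ev Ξ) : ∃ ψ, Psi ev J Ξ ψ := by
  obtain ⟨ψ, h1, h2⟩ := h.kos Ξ hΞ
  have key : ∀ A B A' B', ev A + I • ev B = 0 → ev A' + I • ev B' = 0 →
      ψ (⁅A, A'⁆ - ⁅B, B'⁆) = 0 ∧ ψ (⁅A, B'⁆ + ⁅B, A'⁆) = 0 := by
    intro A B A' B' hW hW'
    obtain ⟨Λ, hΛ⟩ := hJ.exists_lam h hΞ hst hW
    obtain ⟨Λ', hΛ'⟩ := hJ.exists_lam h hΞ hst hW'
    have comp : ∀ (A B A' B' : L) (hW : ev A + I • ev B = 0) (hW' : ev A' + I • ev B' = 0) (Λ Λ' : Ξ →ₗ[ℂ] Ξ),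
        (∀ a (ha : ev a ∈ Ξ), (Λ ⟨ev a, ha⟩ : V) = ev ⁅a, A⁆ + I • ev ⁅a, B⁆) →
        (∀ a (ha : ev a ∈ Ξ), (Λ' ⟨ev a, ha⟩ : V) = ev ⁅a, A'⁆ + I • ev ⁅a, B'⁆) →
        ∀ a (ha : ev a ∈ Ξ), (Λ' (Λ ⟨ev a, ha⟩) : V) = jF ev A' B' ⁅a, A⁆ + I • jF ev A' B' ⁅a, B⁆ := by
      intro A B A' B' hW hW' Λ Λ' hΛ hΛ' a ha
      have e1 : ev (⁅a, A⁆ + J ⁅a, B⁆) = ev ⁅a, A⁆ + I • ev ⁅a, B⁆ := by rw [map_add, hJ.evJ]
      have e2 : Λ ⟨ev a, ha⟩ = ⟨ev (⁅a, A⁆ + J ⁅a, B⁆), e1 ▸ hst A B hW a ha⟩ :=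
        Subtype.ext (by rw [hΛ]; exact e1.symm)
      rw [e2, hΛ', ← jF_apply, map_add, hJ.jF_J h hW']
    have ht := h1 _ _ (h.integ A B A' B' hW hW') (Λ' * Λ - Λ * Λ') (by
      intro a ha
      rw [LinearMap.sub_apply, Module.End.mul_apply, Module.End.mul_apply, Submodule.coe_sub,
        comp A B A' B' hW hW' Λ Λ' hΛ hΛ', comp A' B' A B hW' hW Λ' Λ hΛ' hΛ]
      simp only [jF_apply, lie_sub, lie_add, leibniz_lie a, map_add, map_sub, smul_add, I_smul_I,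
        ← lie_skew A ⁅a, A'⁆, ← lie_skew B ⁅a, B'⁆, ← lie_skew A ⁅a, B'⁆, ← lie_skew B ⁅a, A'⁆, map_neg, smul_neg]
      abel)
    rw [map_sub, LinearMap.trace_mul_comm, sub_self] at ht
    have hre := congrArg Complex.re ht
    have him := congrArg Complex.im ht
    simp only [zero_re, sub_re, mul_re, I_re, ofReal_re, zero_mul, I_im, ofReal_im, mul_zero, sub_self,
      zero_sub, zero_im, sub_im, mul_im, one_mul, zero_add, sub_zero] at hre him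
    exact ⟨him.symm, by linarith⟩
  refine ⟨ψ, fun A B hW => ?_, fun a b => ?_, fun a b => ?_, fun a => ?_, fun a => ?_⟩
  · obtain ⟨Λ, hΛ⟩ := hJ.exists_lam h hΞ hst hW
    exact ⟨Λ, hΛ, h1 A B hW Λ hΛ⟩
  · have := (key _ _ _ _ (hJ.mem_q a) (hJ.mem_q b)).1
    rw [map_sub] at this
    linarith
  · have := (key _ _ _ _ (hJ.mem_q a) (hJ.mem_q b)).2
    rw [map_add, ← lie_skew (J a) b, map_neg] at this
    linarith
  · exact (h2 a (J a) (hJ.evJ a) (hst _ _ (hJ.mem_q a))).1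
  · exact (h2 a (J a) (hJ.evJ a) (hst _ _ (hJ.mem_q a))).2

theorem Psi.ker {Ξ : Submodule ℂ V} {ψ : L →ₗ[ℝ] ℝ} (hψ : Psi ev J Ξ ψ) (hJ : IsJ ev J) {k : L} (hk : ev k = 0)
    (a : L) : ψ ⁅k, a⁆ = 0 := by
  rw [← hψ.jj, hJ.ker k hk, zero_lie, map_zero]

/-- real linear corestriction to a complex subspace -/
def jcod {M : Type} [AddCommGroup M] [Module ℝ M] (e : M →ₗ[ℝ] V) (Ξ : Submodule ℂ V) (h : ∀ x, e x ∈ Ξ) :
    M →ₗ[ℝ] Ξ where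
  toFun x := ⟨e x, h x⟩
  map_add' x y := Subtype.ext (map_add e x y)
  map_smul' c x := Subtype.ext (map_smul e c x)

/-- the range of `ev` as a complex subspace -/
def IsJ.V0 (hJ : IsJ ev J) : Submodule ℂ V where
  carrier := Set.range ev
  add_mem' := by rintro _ _ ⟨a, rfl⟩ ⟨b, rfl⟩; exact ⟨a + b, map_add _ _ _⟩
  zero_mem' := ⟨0, map_zero _⟩
  smul_mem' := by rintro c _ ⟨a, rfl⟩; exact ⟨_, hJ.ev_smul c a⟩

/-- the Koszul form of the full tangent space, with the real trace formula -/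
theorem IsJ.exists_kos (hJ : IsJ ev J) (h : JAlg ev) (hn : NegK ev) : ∃ ψ : L →ₗ[ℝ] ℝ,
    (∀ a b, ψ ⁅J a, J b⁆ = ψ ⁅a, b⁆) ∧ (∀ a b, ψ ⁅a, J b⁆ = ψ ⁅b, J a⁆) ∧
    (∀ a, ev a ≠ 0 → 0 < ψ ⁅a, J a⁆) ∧
    ∀ a, 2 * ψ a = LinearMap.trace ℝ L (J * LieAlgebra.ad ℝ L a) - LinearMap.trace ℝ L (LieAlgebra.ad ℝ L (J a)) := by
  have hm : ∀ a, ev a ∈ hJ.V0 := fun a => ⟨a, rfl⟩
  obtain ⟨ψ, hψ⟩ := hJ.exists_psi h (Ξ := hJ.V0) (fun v hv => hv) (fun A B _ a _ => by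
    rw [← hJ.evJ, ← map_add]; exact hm _)
  refine ⟨ψ, hψ.jj, hψ.sym, fun a => hψ.pos a (hm a), fun a => ?_⟩
  obtain ⟨Λ, hΛ, htr⟩ := hψ.tr a (J a) (hJ.mem_q a)
  have := ja_trace (M := L) (Ξ := hJ.V0) (jcod ev hJ.V0 hm)
    (by rintro ⟨_, a, rfl⟩; exact ⟨a, rfl⟩)
    (-(J * LieAlgebra.ad ℝ L a) - (jq J - 1) * LieAlgebra.ad ℝ L (J a)) (I • Λ) (by
      intro x
      refine Subtype.ext ?_
      show I • (Λ ⟨ev x, hm x⟩ : V) = ev _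
      rw [hΛ]
      simp only [LinearMap.sub_apply, LinearMap.neg_apply, Module.End.mul_apply, LieAlgebra.ad_apply,
        Module.End.one_apply, map_sub, map_neg, hJ.evJ, hJ.ev_q, smul_add, I_smul_I, ← lie_skew x, smul_neg]
      abel) (by
      intro x hx
      have hx' : ev x = 0 := congrArg Subtype.val hx
      simp only [LinearMap.sub_apply, LinearMap.neg_apply, Module.End.mul_apply, LieAlgebra.ad_apply,
        Module.End.one_apply]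
      rw [← lie_skew a x, ← lie_skew (J a) x, ← hJ.J_lie_k h hn hx', map_neg, map_neg, hJ.q_J]
      abel)
  rw [map_smul, htr, map_sub, map_neg, sub_mul, one_mul, map_sub, hJ.trace_q h hn (hJ.q_J a)] at this
  simp only [smul_eq_mul, mul_re, I_re, sub_re, ofReal_re, zero_mul, I_im, ofReal_im, mul_zero, sub_self,
    zero_sub, sub_im, mul_im, one_mul, zero_add, sub_zero] at this
  linarith

end Crest.Agent.R264
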