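import Crest.Agent.R264.JA.Psi

/-! JA: the involution `θ`, `ja3`, `jab2`. -/

set_option autoImplicit false
set_option linter.unusedSectionVars false
open Complex

namespace Crest.Agent.R264

variable {L V V' : Type} [LieRing L] [LieAlgebra ℝ L] [FiniteDimensional ℝ L]
  [AddCommGroup V] [Module ℂ V] [Module ℝ V] [IsScalarTower ℝ ℂ V] [FiniteDimensional ℂ V]
  [AddCommGroup V'] [Module ℂ V'] {ev : L →ₗ[ℝ] V} {J : L →ₗ[ℝ] L}

local notation "κ" => killingForm ℝ L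

/-- `θ = 1` on `𝔨`, `-1` on `𝔪` -/
def jt (J : L →ₗ[ℝ] L) : L →ₗ[ℝ] L := jq J + jq J - 1

theorem jt_apply (J : L →ₗ[ℝ] L) (a : L) : jt J a = jq J a + jq J a - a := rfl

namespace IsJ

theorem t_t (hJ : IsJ ev J) (a : L) : jt J (jt J a) = a := by
  simp only [jt_apply, map_sub, map_add, hJ.q_q]; abel

theorem kf_t (hJ : IsJ ev J) (a b : L) : κ (jt J a) b = κ a (jt J b) := by
  simp only [jt_apply, map_sub, map_add, LinearMap.sub_apply, LinearMap.add_apply, hJ.kf_qq]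

theorem ev_t (hJ : IsJ ev J) (a : L) : ev (jt J a) = -ev a := by
  simp only [jt_apply, map_sub, map_add, hJ.ev_q]; abel

theorem t_k (hJ : IsJ ev J) {k : L} (hk : ev k = 0) : jt J k = k := by
  rw [jt_apply, hJ.q_k hk]; abel

theorem t_m {m : L} (hm : jq J m = 0) : jt J m = -m := by
  rw [jt_apply, hm]; abel

theorem k_of_t (hJ : IsJ ev J) {k : L} (hk : jt J k = k) : ev k = 0 := by
  have h1 := hJ.ev_t k
  rw [hk] at h1
  have : (2 : ℝ) • ev k = 0 := by rw [two_smul]; nth_rw 1 [h1]; exact neg_add_cancel _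
  exact (smul_eq_zero.1 this).resolve_left two_ne_zero

theorem t_lie_k (hJ : IsJ ev J) (h : JAlg ev) (hn : NegK ev) {k : L} (hk : ev k = 0) (a : L) :
    jt J ⁅k, a⁆ = ⁅k, jt J a⁆ := by
  rw [jt_apply, jt_apply, hJ.q_lie_k h hn hk, lie_sub, lie_add]

theorem q_sub (hJ : IsJ ev J) (a : L) : jq J (a - jq J a) = 0 := by rw [map_sub, hJ.q_q, sub_self]

theorem t_neg (hJ : IsJ ev J) (hn : NegK ev) (hp : ∀ m, jq J m = 0 → m ≠ 0 → 0 < κ m m) (x : L) (hx : x ≠ 0) :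
    κ x (jt J x) < 0 := by
  have e : κ x (jt J x) = κ (jq J x) (jq J x) - κ (x - jq J x) (x - jq J x) := by
    have := hJ.kf_q x (hJ.ev_q x)
    simp only [jt_apply, map_sub, map_add, LinearMap.sub_apply, kf_comm (jq J x) x, this]
    ring
  rw [e]
  by_cases h0 : x - jq J x = 0
  · have h1 : jq J x = x := (sub_eq_zero.1 h0).symm
    rw [h0, h1, map_zero, sub_zero]
    exact hn x (h1 ▸ hJ.ev_q x) hx
  · linarith [hp _ (hJ.q_sub x) h0, hn.nonpos (hJ.ev_q x)]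

theorem t_lie (hJ : IsJ ev J) (h : JAlg ev) (hn : NegK ev)
    (hm : ∀ a b, jq J a = 0 → jq J b = 0 → ev ⁅a, b⁆ = 0) (x y : L) : jt J ⁅x, y⁆ = ⁅jt J x, jt J y⁆ := by
  have e1 : ∀ a, jq J a = 0 → jt J ⁅a, y⁆ = -⁅a, jt J y⁆ := by
    intro a ha
    have hy : y = jq J y + (y - jq J y) := by abel
    rw [hy, lie_add, map_add, map_add, hJ.t_k (hJ.ev_q y), t_m (hJ.q_sub y), hJ.t_k (hm _ _ ha (hJ.q_sub y)),
      ← lie_skew a (jq J y), map_neg, hJ.t_lie_k h hn (hJ.ev_q y), t_m ha, lie_add, lie_neg, lie_neg,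
      ← lie_skew a (jq J y)]
    abel
  have hx : x = jq J x + (x - jq J x) := by abel
  rw [hx, add_lie, map_add, map_add, hJ.t_k (hJ.ev_q x), t_m (hJ.q_sub x), hJ.t_lie_k h hn (hJ.ev_q x),
    e1 _ (hJ.q_sub x), add_lie, neg_lie]

end IsJ

theorem isKilling_of_neg {θ : L → L} (h : ∀ x, x ≠ 0 → κ x (θ x) < 0) : LieAlgebra.IsKilling ℝ L := by
  refine ⟨eq_bot_iff.2 fun x hx => ?_⟩
  by_contra hne
  have := (LieIdeal.mem_killingCompl ℝ L ⊤).1 hx (θ x) trivial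
  rw [kf_comm] at this
  exact (h x hne).ne this

theorem Car.isJ {Z : L} (hZ : Car ev Z) : IsJ ev (-LieAlgebra.ad ℝ L Z) := by
  refine ⟨fun a => ?_, fun k hk => ?_, fun a k hk => ?_⟩
  · rw [LinearMap.neg_apply, LieAlgebra.ad_apply, map_neg, hZ.2.2, neg_neg]
  · rw [LinearMap.neg_apply, LieAlgebra.ad_apply, hZ.2.1 k hk, neg_zero]
  · rw [LinearMap.neg_apply, LieAlgebra.ad_apply, map_neg, LinearMap.neg_apply, kf_lie', hZ.2.1 k hk, map_zero,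
      neg_zero, neg_zero]

theorem Car.mm {Z : L} (hZ : Car ev Z) (h : JAlg ev) (a b : L) (ha : jq (-LieAlgebra.ad ℝ L Z) a = 0)
    (hb : jq (-LieAlgebra.ad ℝ L Z) b = 0) : ev ⁅a, b⁆ = 0 := by
  have hJ := hZ.isJ
  set J : L →ₗ[ℝ] L := -LieAlgebra.ad ℝ L Z with hJd
  have der : ∀ x y, J ⁅x, y⁆ = ⁅x, J y⁆ + ⁅J x, y⁆ := by
    intro x y
    simp only [hJd, LinearMap.neg_apply, LieAlgebra.ad_apply, leibniz_lie Z, lie_neg, neg_lie]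
    abel
  have h1 := hJ.nij h (J a) (J b)
  rw [← der, map_sub, map_sub, eq_sub_iff_add_eq, add_eq_left] at h1
  have ea : J (J a) = -a := eq_neg_of_add_eq_zero_right ha
  have eb : J (J b) = -b := eq_neg_of_add_eq_zero_right hb
  rw [ea, eb, lie_neg, neg_lie, neg_neg] at h1
  have := hJ.ev_q ⁅a, b⁆
  rwa [jq_apply, h1, add_zero] at this

theorem Car.pos {Z : L} (hZ : Car ev Z) (h : JAlg ev) (hn : NegK ev) (m : L)
    (hm : jq (-LieAlgebra.ad ℝ L Z) m = 0) (hne : m ≠ 0) : 0 < κ m m := by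
  have hJ := hZ.isJ
  have hmm := hZ.mm h
  set J : L →ₗ[ℝ] L := -LieAlgebra.ad ℝ L Z with hJd
  obtain ⟨ψ, -, -, hpos, hkos⟩ := hJ.exists_kos h hn
  have em : J (J m) = -m := eq_neg_of_add_eq_zero_right hm
  have h1 : ev (J m) ≠ 0 := fun h0 => hne (by rw [← neg_eq_zero, ← em, hJ.ker _ h0])
  have h2 := hpos _ h1
  have h3 := hkos ⁅J m, J (J m)⁆
  rw [hJ.ker _ (hmm _ _ (hJ.q_J _) (hJ.q_J _)), map_zero, map_zero, sub_zero] at h3
  have h4 : LinearMap.trace ℝ L (J * LieAlgebra.ad ℝ L ⁅J m, J (J m)⁆) = -κ Z ⁅J m, J (J m)⁆ := by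
    rw [killingForm_apply_apply, ← map_neg]
    congr 1
  have h5 : ⁅Z, J m⁆ = m := by
    rw [← neg_inj, ← em]; rfl
  rw [h4, ← kf_lie, h5, em, map_neg, neg_neg] at h3
  rw [em] at h2
  linarith

theorem ja3' (h : JAlg ev) (hn : NegK ev) {Z : L} (hZ : Car ev Z) :
    LieAlgebra.IsKilling ℝ L ∧ ∀ a, ⁅Z, a⁆ ≠ 0 → 0 < killingForm ℝ L ⁅Z, a⁆ ⁅Z, a⁆ := by
  refine ⟨isKilling_of_neg (hZ.isJ.t_neg hn (hZ.pos h hn)), fun a ha => hZ.pos h hn _ ?_ ha⟩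
  have := hZ.isJ.q_J (-a)
  rwa [map_neg, LinearMap.neg_apply, neg_neg] at this

theorem jab2' (h : JAlg ev) (hn : NegK ev) {Z : L} (hZ : Car ev Z) {𝔲 𝔭 : Submodule ℝ L} (hle : 𝔲 ≤ 𝔭)
    (hb : ∀ P ∈ 𝔭, ∀ N ∈ 𝔲, ⁅P, N⁆ ∈ 𝔲) (ho : ∀ N ∈ 𝔲, ∀ P ∈ 𝔭, killingForm ℝ L N P = 0)
    (hd : Module.finrank ℝ 𝔲 + Module.finrank ℝ 𝔭 = Module.finrank ℝ L) (p : V →ₗ[ℂ] V')
    (hp : ∀ N ∈ 𝔲, p (ev N) = 0) :
    ∃ Z' ∈ 𝔭, ev Z' = 0 ∧ ∀ a, ∃ a' ∈ 𝔭, p (ev a') = p (ev a) ∧ p (ev ⁅Z', a'⁆) = -(I • p (ev a')) := by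
  have hJ := hZ.isJ
  have hneg := hJ.t_neg hn (hZ.pos h hn)
  have hlie := hJ.t_lie h hn (hZ.mm h)
  set J : L →ₗ[ℝ] L := -LieAlgebra.ad ℝ L Z with hJd
  have hinj : Function.Injective (jt J) := Function.LeftInverse.injective hJ.t_t
  have hdis : 𝔭 ⊓ 𝔲.map (jt J) = ⊥ := by
    rw [eq_bot_iff]
    rintro _ ⟨hP, N, hN, rfl⟩
    by_cases h0 : N = 0
    · simp [h0]
    · exact absurd (ho N hN _ hP) (hneg N h0).ne
  have htop : 𝔭 ⊔ 𝔲.map (jt J) = ⊤ := by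
    refine Submodule.eq_top_of_finrank_eq ?_
    have := Submodule.finrank_sup_add_finrank_inf_eq 𝔭 (𝔲.map (jt J))
    rw [hdis, finrank_bot, add_zero, ← (Submodule.equivMapOfInjective _ hinj 𝔲).finrank_eq] at this
    omega
  have dec : ∀ x, ∃ N ∈ 𝔲, x - jt J N ∈ 𝔭 := by
    intro x
    have : x ∈ 𝔭 ⊔ 𝔲.map (jt J) := htop ▸ Submodule.mem_top
    obtain ⟨P, hP, _, ⟨N, hN, rfl⟩, rfl⟩ := Submodule.mem_sup.1 this
    exact ⟨N, hN, by rwa [add_sub_cancel_right]⟩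
  obtain ⟨N₀, hN₀, hP₀⟩ := dec Z
  refine ⟨Z - jt J N₀ - N₀, 𝔭.sub_mem hP₀ (hle hN₀), by rw [map_sub, map_sub, hZ.1, hJ.ev_t]; abel, fun a => ?_⟩
  obtain ⟨N₁, hN₁, hP₁⟩ := dec (a - jq J a)
  have hm : a - jq J a - jt J N₁ + N₁ ∈ 𝔭 := 𝔭.add_mem hP₁ (hle hN₁)
  refine ⟨_, hm, ?_, ?_⟩
  · simp only [map_add, map_sub, hJ.ev_q, hJ.ev_t, map_neg, hp N₁ hN₁, map_zero]
    abel
  · set a' := a - jq J a - jt J N₁ + N₁ with ha'
    have e1 : jt J a' = -a' := by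
      rw [ha', map_add, map_sub, IsJ.t_m (hJ.q_sub a), hJ.t_t]; abel
    have e2 : p (ev ⁅N₀, a'⁆) = 0 := by
      rw [← lie_skew, map_neg, map_neg, hp _ (hb _ hm _ hN₀), neg_zero]
    have e3 : ev ⁅jt J N₀, a'⁆ = ev ⁅N₀, a'⁆ := by
      have := hJ.ev_t ⁅N₀, a'⁆
      rw [hlie, e1, lie_neg, map_neg] at this
      exact neg_inj.1 this
    rw [sub_lie, sub_lie, map_sub ev, map_sub ev, e3, hZ.2.2, map_sub, map_sub, e2, map_neg, map_smul]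
    abel

end Crest.Agent.R264
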