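import Crest.Agent.R264.JA.One
import Crest.Agent.R264.JA.Three
import Crest.Agent.R264.JA.Don

/-! JA: `ja2`. -/

set_option autoImplicit false
set_option linter.unusedSectionVars false
open Complex

namespace Crest.Agent.R264

variable {L V : Type} [LieRing L] [LieAlgebra ℝ L] [FiniteDimensional ℝ L]
  [AddCommGroup V] [Module ℂ V] [Module ℝ V] [IsScalarTower ℝ ℂ V] [FiniteDimensional ℂ V]
  {ev : L →ₗ[ℝ] V} {J : L →ₗ[ℝ] L}

local notation "κ" => killingForm ℝ L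
local notation "tr" => LinearMap.trace ℝ L

theorem ja2_tr (J P Q A A' : Module.End ℝ L) (hPQ : P + Q = 1) (hJJ : J * J = -P) (hJP : J * P = J)
    (hPJ : P * J = J) (r2 : A' * Q = J * A * Q) (r3 : Q * A' = -(Q * A * J))
    (r4 : (P * A + J * A') * J = J * (P * A + J * A')) :
    tr (J * (A * A' - A' * A)) =
      2 * tr (P * A * Q * A) + tr ((P * A' * J - J * A' * P) * (P * A' * J - J * A' * P)) / 2 := by
  have hPP : P * P = P := by
    have : P * (J * J) = J * J := by rw [← mul_assoc, hPJ]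
    rwa [hJJ, mul_neg, neg_inj] at this
  set C := P * A + J * A' with hC
  have hJA : J * A = J * C + P * A' := by
    rw [hC, mul_add, ← mul_assoc, ← mul_assoc, hJP, hJJ]; noncomm_ring
  have hPA : P * A = C - J * A' := by rw [hC]; abel
  have e1 : tr (J * A * Q * A') = tr (P * A * Q * A) := by
    rw [mul_assoc (J * A), r3, mul_neg, map_neg, ← mul_assoc, LinearMap.trace_mul_comm, ← mul_assoc, ← mul_assoc,
      ← mul_assoc J J, hJJ, neg_mul, neg_mul, neg_mul, map_neg, neg_neg]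
  have e2 : tr (J * A' * Q * A) = -tr (P * A * Q * A) := by
    rw [mul_assoc J A', r2, ← mul_assoc, ← mul_assoc, hJJ, neg_mul, neg_mul, neg_mul, map_neg]
  have e3 : tr (J * A * P * A') = tr (J * A' * C) + tr (P * A' * P * A') := by
    rw [hJA, add_mul, add_mul, map_add, ← r4, mul_assoc C, hJP, mul_assoc C, LinearMap.trace_mul_comm]
  have e4 : tr (J * A' * P * A) = tr (J * A' * C) - tr (J * A' * J * A') := by
    rw [mul_assoc (J * A'), hPA, mul_sub, map_sub, ← mul_assoc]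
  have e5 : J * (A * A' - A' * A) = J * A * P * A' + J * A * Q * A' - (J * A' * P * A + J * A' * Q * A) := by
    rw [← add_mul, ← mul_add, ← add_mul, ← mul_add, hPQ]; noncomm_ring
  have e6 : tr (P * A' * J * (P * A' * J)) = tr (J * A' * J * A') := by
    rw [← mul_assoc, LinearMap.trace_mul_comm]
    simp only [← mul_assoc]
    rw [hJP, mul_assoc (J * A') J P, hJP]
  have e7 : tr (P * A' * J * (J * A' * P)) = -tr (P * A' * P * A') := by
    rw [← mul_assoc, LinearMap.trace_mul_comm]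
    simp only [← mul_assoc]
    rw [hPP, mul_assoc (P * A') J J, hJJ, mul_neg, neg_mul, map_neg]
  have e8 : tr (J * A' * P * (P * A' * J)) = -tr (P * A' * P * A') := by
    rw [← mul_assoc, LinearMap.trace_mul_comm]
    simp only [← mul_assoc]
    rw [hJJ, mul_assoc (-P * A') P P, hPP, neg_mul, neg_mul, neg_mul, map_neg]
  have e9 : tr (J * A' * P * (J * A' * P)) = tr (J * A' * J * A') := by
    rw [← mul_assoc, LinearMap.trace_mul_comm]
    simp only [← mul_assoc]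
    rw [hPJ, mul_assoc (J * A') P J, hPJ]
  rw [e5, sub_mul, mul_sub, mul_sub, map_sub, map_add, map_add, map_sub, map_sub, map_sub, e1, e2, e3, e4, e6, e7,
    e8, e9]
  ring

theorem kf_eq_zero (hk : LieAlgebra.IsKilling ℝ L) {x : L} (h : ∀ y, κ x y = 0) : x = 0 :=
  (LieAlgebra.IsKilling.killingForm_nondegenerate ℝ L).1 x h

theorem IsJ.q_lie_J (hJ : IsJ ev J) (h : JAlg ev) (hn : NegK ev) (hsk : ∀ x y, κ (J x) y = -κ x (J y)) (a y : L) :
    jq J ⁅J a, y⁆ = -jq J ⁅a, J y⁆ := by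
  rw [eq_neg_iff_add_eq_zero, ← map_add]
  refine hJ.q_m hn fun k hk => ?_
  rw [map_add, LinearMap.add_apply, kf_lie', kf_lie', ← lie_skew (J a) k, ← hJ.J_lie_k h hn hk, ← lie_skew a k,
    map_neg, map_neg, hsk]
  ring

/-- the structure in the semisimple case: `ψ = B (Z₀, ·)` -/
theorem IsJ.ja2_pos (hJ : IsJ ev J) (h : JAlg ev) (hn : NegK ev) (hk : LieAlgebra.IsKilling ℝ L) :
    (∀ x y, κ (J x) y = -κ x (J y)) ∧ (∀ m, jq J m = 0 → m ≠ 0 → 0 < κ m m) ∧
      ∃ Z₀, ev Z₀ = 0 ∧ ∀ m, jq J m = 0 → ∃ u, jq J u = 0 ∧ ⁅Z₀, u⁆ = m := by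
  obtain ⟨ψ, hjj, hsym, hpos, hkos⟩ := hJ.exists_kos h hn
  obtain ⟨Z, hZ⟩ : ∃ Z, ∀ x, κ Z x = ψ x :=
    ⟨_, fun x => LinearMap.BilinForm.apply_toDual_symm_apply
      (hB := LieAlgebra.IsKilling.killingForm_nondegenerate ℝ L) ψ x⟩
  have hT : ∀ x y, κ ⁅Z, x⁆ y = ψ ⁅x, y⁆ := fun x y => by rw [kf_lie, hZ]
  have Tk : ∀ k, ev k = 0 → ⁅Z, k⁆ = 0 := fun k hk0 => kf_eq_zero hk fun y => by
    rw [hT, ← hjj, hJ.ker k hk0, zero_lie, map_zero]
  have kT : ∀ x, ⁅Z, x⁆ = 0 → ev x = 0 := fun x hx => by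
    by_contra hne
    have := hpos x hne
    rw [← hT, hx, map_zero, LinearMap.zero_apply] at this
    exact lt_irrefl _ this
  have Z0 : ev Z = 0 := kT Z (lie_self Z)
  have TJ : ∀ x, J ⁅Z, x⁆ = ⁅Z, J x⁆ := hJ.J_lie_k h hn Z0
  have QT : ∀ x, jq J ⁅Z, x⁆ = 0 := fun x => by rw [hJ.q_lie_k h hn Z0, Tk _ (hJ.ev_q x)]
  have JJ : ∀ x, jq J x = 0 → J (J x) = -x := fun x hx => eq_neg_of_add_eq_zero_right hx
  have surj : ∀ m, jq J m = 0 → ∃ u, jq J u = 0 ∧ ⁅Z, u⁆ = m := by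
    have hinj : Function.Injective (LieAlgebra.ad ℝ L Z + jq J : L →ₗ[ℝ] L) := by
      rw [← LinearMap.ker_eq_bot, eq_bot_iff]
      intro x hx
      have h1 : ⁅Z, x⁆ + jq J x = 0 := hx
      have h2 := congrArg (jq J) h1
      rw [map_add, QT, hJ.q_q, zero_add, map_zero] at h2
      rw [h2, add_zero] at h1
      rw [hJ.q_k (kT x h1)] at h2
      exact h2
    intro m hm
    obtain ⟨u, hu⟩ := LinearMap.injective_iff_surjective.1 hinj m
    have h1 : ⁅Z, u⁆ + jq J u = m := hu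
    have h2 := congrArg (jq J) h1
    rw [map_add, QT, hJ.q_q, zero_add, hm] at h2
    exact ⟨u, h2, by rw [← h1, h2, add_zero]⟩
  have hsk : ∀ x y, κ (J x) y = -κ x (J y) := by
    intro x y
    obtain ⟨u, -, hu⟩ := surj (J x) (hJ.q_J x)
    have e1 : κ (J (J x)) (J y) = κ (J x) y := by rw [← hu, TJ, hT, hT, hjj]
    have e2 : κ (jq J x) (J y) = 0 := by rw [kf_comm, hJ.perp _ _ (hJ.ev_q x)]
    rw [jq_apply, map_add, LinearMap.add_apply] at e2
    linarith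
  refine ⟨hsk, ?_, Z, Z0, surj⟩
  set R : L →ₗ[ℝ] L := -(J * LieAlgebra.ad ℝ L Z) with hR
  have Ra : ∀ x, R x = -J ⁅Z, x⁆ := fun x => rfl
  have QR : ∀ x, jq J (R x) = 0 := fun x => by rw [Ra, map_neg, hJ.q_J, neg_zero]
  have kR : ∀ x y, κ (R x) y = ψ ⁅x, J y⁆ := fun x y => by
    rw [Ra, map_neg, LinearMap.neg_apply, hsk, neg_neg, hT]
  have kRR : ∀ x y, κ (R x) y = κ x (R y) := fun x y => by rw [kR, kf_comm, kR, hsym]
  have HQ : ∀ x y, jq J x = 0 → jH J ψ x y = κ x (R y) := fun x y hx => by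
    rw [jH_apply, hx, map_zero, LinearMap.zero_apply, sub_zero, ← kRR, kR]
  have TR : ∀ x (c : ℝ), R x = c • x → ⁅Z, x⁆ = c • J x := fun x c hx => by
    have := congrArg J hx
    rwa [Ra, map_neg, JJ _ (QT x), neg_neg, map_smul] at this
  obtain ⟨n, e, μ, hex, heig, hone, htr⟩ := ja_onb (jH J ψ) (jH_symm hsym) (hJ.jH_pos hn hpos) R (fun x y => by
    rw [HQ _ _ (QR x), jH_symm hsym, HQ _ _ (QR y), kf_comm])
  have hev : ∀ v (c : ℝ), v ≠ 0 → jq J v = 0 → R v = c • v → ∃ j, μ j = c := by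
    intro v c hv hq hc
    by_contra! hne
    refine hv ?_
    rw [← hex v]
    refine Finset.sum_eq_zero fun j _ => ?_
    have e1 : jH J ψ (R v) (e j) = μ j * jH J ψ v (e j) := by
      rw [HQ _ _ (QR v), HQ _ _ hq, kRR, heig, map_smul, heig, map_smul, smul_eq_mul]
    rw [hc, map_smul, LinearMap.smul_apply, smul_eq_mul] at e1
    have : jH J ψ v (e j) = 0 := by
      by_contra h0
      exact hne j (mul_right_cancel₀ h0 e1).symm
    rw [this, zero_smul]
  have hμ : ∀ j, 0 ≤ μ j := by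
    by_contra! hneg
    obtain ⟨j₁, hj₁⟩ := hneg
    obtain ⟨j₀, -, hmin⟩ := Finset.exists_min_image Finset.univ μ ⟨j₁, Finset.mem_univ _⟩
    set l := μ j₀ with hl
    have hl0 : l < 0 := (hmin j₁ (Finset.mem_univ _)).trans_lt hj₁
    set a := e j₀ with ha
    have Rα : R a = l • a := heig j₀
    have Qa : jq J a = 0 := by
      have := QR a
      rw [Rα, map_smul] at this
      exact (smul_eq_zero.1 this).resolve_left hl0.ne
    have ane : a ≠ 0 := fun h0 => by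
      have := hone j₀
      rw [← ha, h0, map_zero] at this
      exact zero_ne_one this
    have eva : ev a ≠ 0 := fun h0 => ane (by rw [← hJ.q_k h0, Qa])
    have Ta : ⁅Z, a⁆ = l • J a := TR a l Rα
    have Tb : ⁅Z, J a⁆ = -(l • a) := by rw [← TJ, Ta, map_smul, JJ a Qa, smul_neg]
    have K0 : ev ⁅a, J a⁆ = 0 := kT _ (by
      rw [leibniz_lie, Ta, Tb, smul_lie, lie_self, lie_neg, lie_smul, lie_self]; simp)
    have h1 := hkos ⁅a, J a⁆
    have hc : LieAlgebra.ad ℝ L ⁅a, J a⁆ = LieAlgebra.ad ℝ L a * LieAlgebra.ad ℝ L (J a) -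
        LieAlgebra.ad ℝ L (J a) * LieAlgebra.ad ℝ L a := LinearMap.ext fun x => lie_lie a (J a) x
    rw [hJ.ker _ K0, map_zero, map_zero, sub_zero, hc] at h1
    set A := LieAlgebra.ad ℝ L a with hA
    set A' := LieAlgebra.ad ℝ L (J a) with hA'
    set P : Module.End ℝ L := 1 - jq J with hP
    have Pa : ∀ x, P x = x - jq J x := fun x => rfl
    have JP : ∀ x, J (P x) = J x := fun x => by rw [Pa, map_sub, hJ.J_q, sub_zero]
    have PJ : ∀ x, P (J x) = J x := fun x => by rw [Pa, hJ.q_J, sub_zero]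
    have JJP : ∀ x, J (J x) = -P x := fun x => by rw [Pa, jq_apply]; abel
    have QP : ∀ x, jq J (P x) = 0 := hJ.q_sub
    have kP : ∀ x y, κ (P x) y = κ x (P y) := fun x y => by
      simp only [Pa, map_sub, LinearMap.sub_apply, hJ.kf_qq]
    have r4 : ∀ y, P ⁅a, J y⁆ + J ⁅J a, J y⁆ = J ⁅a, y⁆ - P ⁅J a, y⁆ := by
      intro y
      have := congrArg J (hJ.nij h a y)
      rw [hJ.JJJ, JJP, map_add, map_sub] at this
      rw [eq_sub_iff_add_eq, add_right_comm, ← neg_inj, neg_add, this]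
      abel
    rw [ja2_tr J P (jq J) A A' (by rw [hP]; abel) (LinearMap.ext JJP) (LinearMap.ext JP) (LinearMap.ext PJ)
      (LinearMap.ext fun x => by
        show ⁅J a, jq J x⁆ = J ⁅a, jq J x⁆
        rw [← lie_skew a, map_neg, hJ.J_lie_k h hn (hJ.ev_q x), lie_skew])
      (LinearMap.ext fun x => hJ.q_lie_J h hn hsk a x)
      (LinearMap.ext fun x => by
        show P ⁅a, J x⁆ + J ⁅J a, J x⁆ = J (P ⁅a, x⁆ + J ⁅J a, x⁆)
        rw [r4, map_add, JP, JJP, sub_eq_add_neg])] at h1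
    set s := P * A' * J - J * A' * P with hs
    have sa : ∀ y, s y = P ⁅J a, J y⁆ - J ⁅J a, P y⁆ := fun y => rfl
    have Qs : ∀ y, jq J (s y) = 0 := fun y => by rw [sa, map_sub, QP, hJ.q_J, sub_zero]
    have ssk : ∀ x y, κ (s x) y = -κ x (s y) := by
      intro x y
      rw [sa, sa, map_sub, LinearMap.sub_apply, kP, hsk, kf_lie', kf_lie', hsk, kP, map_sub]
      ring
    have TP : ∀ x, ⁅Z, P x⁆ = ⁅Z, x⁆ := fun x => by rw [Pa, lie_sub, Tk _ (hJ.ev_q x), sub_zero]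
    have PT : ∀ x, P ⁅Z, x⁆ = ⁅Z, x⁆ := fun x => by rw [Pa, QT, sub_zero]
    have Rs : ∀ j, R (s (e j)) = (l - μ j) • s (e j) := by
      intro j
      have Ty : ⁅Z, e j⁆ = μ j • J (e j) := TR _ _ (heig j)
      have TJy : ⁅Z, J (e j)⁆ = -(μ j • P (e j)) := by rw [← TJ, Ty, map_smul, JJP, smul_neg]
      have Js : J (s (e j)) = J ⁅J a, J (e j)⁆ + P ⁅J a, P (e j)⁆ := by
        rw [sa, map_sub, JP, JJP, sub_neg_eq_add]
      have e1 := r4 (P (e j))
      rw [JP] at e1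
      have Ts : ⁅Z, s (e j)⁆ = (l - μ j) • J (s (e j)) := by
        rw [Js, sa, lie_sub, TP, ← PT, ← TJ, leibniz_lie Z, leibniz_lie Z, Tb, TJy, TP, Ty]
        simp only [neg_lie, smul_lie, lie_neg, lie_smul, map_add, map_neg, map_smul]
        rw [eq_sub_of_add_eq e1]
        module
      rw [Ra, Ts, map_smul, JJ _ (Qs _), smul_neg, neg_neg]
    have t1 : tr (P * A * jq J * A) ≤ 0 := by
      rw [htr]
      refine Finset.sum_nonpos fun j _ => ?_
      show jH J ψ (P ⁅a, jq J ⁅a, e j⁆⁆) (e j) ≤ 0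
      set k := jq J ⁅a, e j⁆ with hkd
      have hk0 : ev k = 0 := hJ.ev_q _
      have Rk : R ⁅k, a⁆ = l • ⁅k, a⁆ := by
        rw [Ra, leibniz_lie, Tk k hk0, zero_lie, zero_add, Ta, lie_smul, map_smul, hJ.J_lie_k h hn hk0, JJ a Qa,
          lie_neg, smul_neg, neg_neg]
      have Qk : P ⁅a, k⁆ = -⁅k, a⁆ := by
        rw [← lie_skew a k, map_neg, Pa, hJ.q_lie_k h hn hk0, Qa, lie_zero, sub_zero]
      rw [HQ _ _ (QP _), Qk, map_neg, LinearMap.neg_apply, ← kRR, Rk, map_smul, LinearMap.smul_apply, kf_lie,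
        kf_comm, ← hJ.kf_q _ hk0, smul_eq_mul, neg_nonpos]
      exact mul_nonneg_of_nonpos_of_nonpos hl0.le (hn.nonpos hk0)
    have t2 : tr (s * s) ≤ 0 := by
      rw [htr]
      refine Finset.sum_nonpos fun j _ => ?_
      show jH J ψ (s (s (e j))) (e j) ≤ 0
      rw [HQ _ _ (Qs _), heig, map_smul, ssk, smul_eq_mul, mul_neg, neg_nonpos]
      by_cases hv : s (e j) = 0
      · simp [hv]
      · obtain ⟨i, hi⟩ := hev _ _ hv (Qs _) (Rs j)
        have h2 := hmin i (Finset.mem_univ _)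
        have h3 := hmin j (Finset.mem_univ _)
        have h4 := hJ.jH_pos hn hpos _ hv
        rw [HQ _ _ (Qs _), Rs, map_smul, smul_eq_mul] at h4
        refine mul_nonneg_of_nonpos_of_nonpos (by linarith) ?_
        by_contra! h5
        nlinarith
    linarith [hpos a eva]
  intro m hm hne
  obtain ⟨u, -, hu⟩ := surj m hm
  have e1 : R (J u) = m := by rw [Ra, ← TJ, JJ _ (QT u), neg_neg, hu]
  have e2 : R (J u) = ∑ j, (μ j * jH J ψ (J u) (e j)) • e j := by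
    conv_lhs => rw [← hex (J u)]
    rw [map_sum]
    exact Finset.sum_congr rfl fun j _ => by rw [map_smul, heig, smul_smul, mul_comm]
  have e3 : κ m m = ∑ j, μ j * jH J ψ (J u) (e j) * jH J ψ (J u) (e j) := by
    rw [← e1, kRR, ← HQ _ _ (hJ.q_J u), e2, map_sum]
    exact Finset.sum_congr rfl fun j _ => by rw [map_smul, smul_eq_mul]
  have e4 : ∀ j ∈ (Finset.univ : Finset (Fin n)), 0 ≤ μ j * jH J ψ (J u) (e j) * jH J ψ (J u) (e j) :=
    fun j _ => by rw [mul_assoc]; exact mul_nonneg (hμ j) (mul_self_nonneg _)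
  rw [e3]
  refine (Finset.sum_nonneg e4).lt_of_ne fun h0 => hne ?_
  rw [← e1, e2]
  refine Finset.sum_eq_zero fun j hj => ?_
  rcases mul_eq_zero.1 ((Finset.sum_eq_zero_iff_of_nonneg e4).1 h0.symm j hj) with h1 | h1
  · rw [h1, zero_smul]
  · rw [h1, mul_zero, zero_smul]

theorem ja2' (h : JAlg ev) (hn : NegK ev) (hk : LieAlgebra.IsKilling ℝ L) :
    ∃ Z, Car ev Z ∧ ∃ 𝔪 : Submodule ℝ L, IsCompl 𝔪 (LinearMap.ker ev) ∧
      ∀ a ∈ 𝔪, a ≠ 0 → 0 < killingForm ℝ L a a := by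
  obtain ⟨J, hJ⟩ := exists_isJ h hn
  obtain ⟨hsk, hpos, Z₀, hZ₀, surj⟩ := hJ.ja2_pos h hn hk
  have hmm : ∀ a b, jq J a = 0 → jq J b = 0 → ev ⁅a, b⁆ = 0 := by
    intro a b ha hb
    obtain ⟨u, hu, rfl⟩ := surj a ha
    exact hJ.k_of_t (ja_don (jt J) hJ.t_t hJ.kf_t (hJ.t_neg hn hpos)
      (fun k hk0 => hJ.t_lie_k h hn (hJ.k_of_t hk0)) (hJ.t_k hZ₀) (IsJ.t_m hu) (IsJ.t_m hb))
  have der : ∀ x y, J ⁅x, y⁆ = ⁅x, J y⁆ - ⁅y, J x⁆ := by
    have e1 : ∀ a, jq J a = 0 → ∀ y, J ⁅a, y⁆ = ⁅a, J y⁆ - ⁅y, J a⁆ := by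
      intro a ha y
      have hy : y = jq J y + (y - jq J y) := by abel
      have e2 := hJ.q_lie_J h hn hsk a (y - jq J y)
      rw [hJ.q_k (hmm _ _ (hJ.q_J a) (hJ.q_sub y)), hJ.q_k (hmm _ _ ha (hJ.q_J _))] at e2
      rw [hy, lie_add, map_add, map_add, hJ.ker _ (hmm _ _ ha (hJ.q_sub y)), hJ.J_q, ← lie_skew a (jq J y), map_neg,
        hJ.J_lie_k h hn (hJ.ev_q y), add_lie, ← lie_skew (y - jq J y), e2, zero_add]
      abel
    intro x y
    have hx : x = jq J x + (x - jq J x) := by abel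
    rw [hx, add_lie, map_add, map_add, hJ.J_lie_k h hn (hJ.ev_q x), e1 _ (hJ.q_sub x), hJ.J_q, add_lie, zero_add]
    abel
  obtain ⟨Z, hZ⟩ := LieDerivation.IsKilling.exists_eq_ad (R := ℝ) (L := L) ⟨J, der⟩
  have hZ' : ∀ a, ⁅Z, a⁆ = J a := fun a => by
    have := congrArg (fun D : LieDerivation ℝ L L => D a) hZ
    simpa using this
  refine ⟨-Z, ⟨?_, fun k hk0 => ?_, fun a => ?_⟩, LinearMap.ker (jq J), ⟨?_, ?_⟩, fun a ha => hpos a ha⟩
  · have := hJ.evJ Z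
    rw [← hZ', lie_self, map_zero] at this
    rw [map_neg, ← I_smul_I, ← this, smul_zero]
  · rw [neg_lie, hZ', hJ.ker k hk0, neg_zero]
  · rw [neg_lie, hZ', map_neg, hJ.evJ]
  · rw [Submodule.disjoint_def]
    intro x h1 h2
    rw [← hJ.q_k h2]; exact h1
  · rw [codisjoint_iff, eq_top_iff]
    intro x _
    exact Submodule.mem_sup.2 ⟨x - jq J x, hJ.q_sub x, jq J x, hJ.ev_q x, sub_add_cancel _ _⟩

end Crest.Agent.R264
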